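import Vale.Agent.P179.H525.FM

/-! # Abelian normal subgroups and the number of homomorphisms from a surface group -/

set_option linter.unusedSectionVars false
set_option linter.unusedVariables false

namespace Vale.Agent.P179.H525

lemma dvd_card_of_fibers {S Q : Type*} [Finite S] [Finite Q] (π : S → Q) (m : ℕ)
    (h : ∀ s : S, m ∣ Nat.card {s' // π s' = π s}) : m ∣ Nat.card S := by
  classical
  have := Fintype.ofFinite Q
  have := Fintype.ofFinite S
  rw [← Nat.card_congr (Equiv.sigmaFiberEquiv π), Nat.card_sigma]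
  refine Finset.dvd_sum fun q _ => ?_
  by_cases hq : ∃ s, π s = q
  · obtain ⟨s, rfl⟩ := hq
    exact h s
  · have : IsEmpty {s // π s = q} := ⟨fun s => hq ⟨s.1, s.2⟩⟩
    simp

section

variable {K : Type*} [Group K] (A : Subgroup K) [A.Normal] (hA : ∀ a b : A, a * b = b * a)

include hA in
/-- one commutator is an affine function on a coset of `A × A` -/
lemma exists_hom_comm (x y : K) : ∃ l : A × A →* A, ∀ a : A × A,
    (a.1 * x : K) * (a.2 * y) * (a.1 * x)⁻¹ * (a.2 * y)⁻¹ = l a * (x * y * x⁻¹ * y⁻¹) := by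
  let _ : CommGroup A := { (inferInstance : Group A) with mul_comm := hA }
  let c : K → (A →* A) := fun k => (MulAut.conjNormal (H := A) k).toMonoidHom
  have hc : ∀ (k : K) (a : A), ((c k a : A) : K) = k * a * k⁻¹ := fun k a => by simp [c]
  let l : A × A →* A :=
    (MonoidHom.fst A A) * ((c x).comp (MonoidHom.snd A A)) *
      ((c (x * y * x⁻¹)).comp (MonoidHom.fst A A))⁻¹ *
      ((c (x * y * x⁻¹ * y⁻¹)).comp (MonoidHom.snd A A))⁻¹
  refine ⟨l, fun a => ?_⟩
  have : ((l a : A) : K) = a.1 * (x * a.2 * x⁻¹) * ((x * y * x⁻¹) * a.1 * (x * y * x⁻¹)⁻¹)⁻¹ *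
      ((x * y * x⁻¹ * y⁻¹) * a.2 * (x * y * x⁻¹ * y⁻¹)⁻¹)⁻¹ := by
    rw [← hc, ← hc, ← hc]
    rfl
  rw [this]
  group

include hA in
/-- a product of commutators is an affine function on the cosets of the tuples in `A` -/
lemma exists_hom_comProd {g : ℕ} (f : Fin g → K × K) : ∃ L : (Fin g → A × A) →* A,
    ∀ t : Fin g → A × A, comProd (fun i => ((t i).1 * (f i).1, (t i).2 * (f i).2)) =
      L t * comProd f := by
  let _ : CommGroup A := { (inferInstance : Group A) with mul_comm := hA }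
  let c : K → (A →* A) := fun k => (MulAut.conjNormal (H := A) k).toMonoidHom
  have hc : ∀ (k : K) (a : A), ((c k a : A) : K) = k * a * k⁻¹ := fun k a => by simp [c]
  induction g with
  | zero => exact ⟨1, fun t => by simp [comProd]⟩
  | succ g ih =>
    obtain ⟨L, hL⟩ := ih (Fin.tail f)
    obtain ⟨l, hl⟩ := exists_hom_comm A hA (f 0).1 (f 0).2
    set u : K := (f 0).1 * (f 0).2 * (f 0).1⁻¹ * (f 0).2⁻¹ with hu
    let p0 : (Fin (g + 1) → A × A) →* A × A := Pi.evalMonoidHom _ 0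
    let p1 : (Fin (g + 1) → A × A) →* (Fin g → A × A) :=
      { toFun := fun t => Fin.tail t, map_one' := rfl, map_mul' := fun _ _ => rfl }
    refine ⟨(l.comp p0) * ((c u).comp (L.comp p1)), fun t => ?_⟩
    have h1 : (fun i => (((t i).1 : K) * (f i).1, ((t i).2 : K) * (f i).2)) =
        Fin.cons (((t 0).1 : K) * (f 0).1, ((t 0).2 : K) * (f 0).2)
          (fun i => (((Fin.tail t i).1 : K) * (Fin.tail f i).1,
            ((Fin.tail t i).2 : K) * (Fin.tail f i).2)) := by
      ext i <;> refine Fin.cases ?_ (fun j => ?_) i <;> simp [Fin.tail]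
    have h2 : f = Fin.cons (f 0) (Fin.tail f) := (Fin.cons_self_tail f).symm
    rw [h1, comProd_cons, hL, hl (t 0)]
    conv_rhs => rw [h2, comProd_cons]
    have h3 : ((((l.comp p0) * ((c u).comp (L.comp p1))) t : A) : K)
        = (l (t 0) : K) * (u * (L (Fin.tail t) : K) * u⁻¹) := by
      rw [← hc]
      rfl
    rw [h3, ← hu]
    group

omit hA in
lemma mk_mul_eq (a : A) (x : K) : (((a : K) * x : K) : K ⧸ A) = (x : K ⧸ A) := by
  rw [QuotientGroup.eq]
  have : ((a : K) * x)⁻¹ * x = x⁻¹ * (a : K)⁻¹ * x⁻¹⁻¹ := by group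
  rw [this]
  exact Subgroup.Normal.conj_mem inferInstance _ (inv_mem a.2) _

lemma exists_of_mk_eq {x y : K} (h : (x : K ⧸ A) = (y : K ⧸ A)) : x * y⁻¹ ∈ A := by
  rw [QuotientGroup.eq] at h
  have h1 : x * y⁻¹ = y * (x⁻¹ * y)⁻¹ * y⁻¹ := by group
  rw [h1]
  exact Subgroup.Normal.conj_mem inferInstance _ (inv_mem h) _

include hA in
/-- **If `A` is an abelian normal subgroup of `K` then `|A| ^ (2 g - 1)` divides the number of
homomorphisms from a surface group of genus `g` to `K`.** -/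
theorem pow_card_dvd_nHom [Finite K] {g : ℕ} (hg : 1 ≤ g) :
    Nat.card A ^ (2 * g - 1) ∣ nHom K g := by
  classical
  refine dvd_card_of_fibers
    (Q := Fin g → (K ⧸ A) × (K ⧸ A)) (fun f i => ((f.1 i).1, (f.1 i).2)) _ fun s => ?_
  obtain ⟨L, hL⟩ := exists_hom_comProd A hA s.1
  have h1 : Nat.card {s' : {f : Fin g → K × K // comProd f = 1} //
      (fun i => ((((s'.1 i).1 : K) : K ⧸ A), (((s'.1 i).2 : K) : K ⧸ A))) =
      (fun i => ((((s.1 i).1 : K) : K ⧸ A), (((s.1 i).2 : K) : K ⧸ A)))} = Nat.card L.ker := by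
    let F : L.ker → {s' : {f : Fin g → K × K // comProd f = 1} //
      (fun i => ((((s'.1 i).1 : K) : K ⧸ A), (((s'.1 i).2 : K) : K ⧸ A))) =
      (fun i => ((((s.1 i).1 : K) : K ⧸ A), (((s.1 i).2 : K) : K ⧸ A)))} := fun t => ⟨⟨fun i =>
      (((t.1 i).1 : K) * (s.1 i).1, ((t.1 i).2 : K) * (s.1 i).2), by
        rw [hL, s.2, mul_one, (MonoidHom.mem_ker).mp t.2]; rfl⟩, by
        funext i
        exact Prod.ext (mk_mul_eq A _ _) (mk_mul_eq A _ _)⟩
    refine (Nat.card_congr (Equiv.ofBijective F ⟨?_, ?_⟩)).symm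
    · intro t t' h
      have h2 : ∀ i, (((t.1 i).1 : K) * (s.1 i).1, ((t.1 i).2 : K) * (s.1 i).2) =
          (((t'.1 i).1 : K) * (s.1 i).1, ((t'.1 i).2 : K) * (s.1 i).2) := by
        intro i
        exact congrFun (congrArg Subtype.val (congrArg Subtype.val h)) i
      apply Subtype.ext
      funext i
      have h3 := Prod.ext_iff.mp (h2 i)
      refine Prod.ext (Subtype.ext (mul_right_cancel h3.1)) (Subtype.ext (mul_right_cancel h3.2))
    · rintro ⟨⟨f, hf⟩, hf'⟩
      have h2 : ∀ i, ((f i).1 : K ⧸ A) = ((s.1 i).1 : K ⧸ A) ∧ ((f i).2 : K ⧸ A) = ((s.1 i).2 : K ⧸ A) :=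
        fun i => Prod.ext_iff.mp (congrFun hf' i)
      let t : Fin g → A × A := fun i =>
        (⟨(f i).1 * (s.1 i).1⁻¹, exists_of_mk_eq A (h2 i).1⟩, ⟨(f i).2 * (s.1 i).2⁻¹, exists_of_mk_eq A (h2 i).2⟩)
      have ht : (fun i => (((t i).1 : K) * (s.1 i).1, ((t i).2 : K) * (s.1 i).2)) = f := by
        funext i
        simp [t]
      have ht' : t ∈ L.ker := by
        rw [MonoidHom.mem_ker]
        have := hL t
        rw [ht, hf, s.2, mul_one] at this
        exact Subtype.ext this.symm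
      exact ⟨⟨t, ht'⟩, Subtype.ext (Subtype.ext ht)⟩
  rw [h1]
  have h2 : Nat.card L.ker * Nat.card L.range = Nat.card (Fin g → A × A) := by
    rw [← Nat.card_congr (QuotientGroup.quotientKerEquivRange L).toEquiv]
    rw [mul_comm]
    exact (Subgroup.card_eq_card_quotient_mul_card_subgroup L.ker).symm
  have h3 : Nat.card (Fin g → A × A) = Nat.card A ^ (2 * g) := by
    rw [Nat.card_fun, Nat.card_prod, Nat.card_eq_fintype_card (α := Fin g), Fintype.card_fin, ← sq, ← pow_mul]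
  obtain ⟨m, hm⟩ : Nat.card L.range ∣ Nat.card A := Subgroup.card_subgroup_dvd_card _
  have h4 : 0 < Nat.card L.range := Nat.card_pos
  refine ⟨m, ?_⟩
  have h5 : 2 * g = (2 * g - 1) + 1 := by omega
  rw [h3, h5, pow_succ] at h2
  apply Nat.eq_of_mul_eq_mul_right h4
  rw [h2, mul_assoc, mul_comm m, ← hm]

/-- A finite group with a nontrivial normal `p`-subgroup has a nontrivial normal abelian
`p`-subgroup. -/
theorem exists_abelian_normal [Finite K] {p : ℕ} [hp : Fact p.Prime] (Q : Subgroup K) [Q.Normal]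
    (hQ : IsPGroup p Q) (hQ1 : Q ≠ ⊥) :
    ∃ A : Subgroup K, A.Normal ∧ (∀ a b : A, a * b = b * a) ∧ IsPGroup p A ∧ A ≠ ⊥ := by
  have : Nontrivial Q := (Subgroup.nontrivial_iff_ne_bot Q).mpr hQ1
  have hc := hQ.center_nontrivial
  refine ⟨(Subgroup.center Q).map Q.subtype, inferInstance, ?_, ?_, ?_⟩
  · rintro ⟨_, a, ha, rfl⟩ ⟨_, b, hb, rfl⟩
    apply Subtype.ext
    have := (Subgroup.mem_center_iff.mp ha b)
    simpa using congrArg Subtype.val this.symm
  · exact (hQ.to_subgroup _).map _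
  · intro h
    rw [Subgroup.map_eq_bot_iff_of_injective _ Q.subtype_injective] at h
    exact (Subgroup.nontrivial_iff_ne_bot _).mp hc h

end

/-- **A group with a nontrivial normal `p`-subgroup has no irreducible character of `p`-defect
zero** (in terms of a Wedderburn decomposition). -/
theorem dvd_of_normal {K : Type*} [Group K] [Fintype K] {ι : Type*} [Fintype ι] {d : ι → ℕ}
    (φ : MonoidAlgebra ℂ K ≃ₐ[ℂ] MatAlg d) (hd : ∀ i, NeZero (d i)) {p : ℕ} (hp : p.Prime)
    (Q : Subgroup K) [Q.Normal] (hQ : IsPGroup p Q) (hQ1 : Q ≠ ⊥) (i : ι) :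
    p ∣ Fintype.card K / d i := by
  classical
  have : Fact p.Prime := ⟨hp⟩
  by_contra hi
  obtain ⟨A, hAn, hAc, hAp, hA1⟩ := exists_abelian_normal Q hQ hQ1
  set z := (Finset.univ.filter fun i => ¬ p ∣ Fintype.card K / d i).card with hz
  have hz0 : 0 < z := Finset.card_pos.mpr ⟨i, by simp [hi]⟩
  have hK : 0 < Fintype.card K := Fintype.card_pos
  obtain ⟨a, m, hm, ham⟩ := Nat.exists_eq_pow_mul_and_not_dvd hK.ne' p hp.ne_one
  have hm0 : 0 < m := Nat.pos_of_ne_zero (fun h => hm (h ▸ dvd_zero p))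
  have haK : a ≤ Fintype.card K := by
    have h1 : a < p ^ a := Nat.lt_pow_self hp.one_lt
    have h2 : p ^ a ≤ p ^ a * m := Nat.le_mul_of_pos_right _ hm0
    omega
  -- for large `N` the number of homomorphisms is divisible by `|K|_p p ^ (N + 1)`
  set N := Fintype.card K + z with hN
  have h1 := nHom_modEq φ hp hd N
  rw [← hz] at h1
  have h2 : p ^ (a + (N + 1)) ∣ nHom K (gen p N) := by
    refine dvd_trans ?_ (pow_card_dvd_nHom A hAc (one_le_gen p N))
    have h3 : p ∣ Nat.card A := by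
      obtain ⟨n, hn⟩ := IsPGroup.iff_card.mp hAp
      have hn0 : n ≠ 0 := by
        rintro rfl
        rw [pow_zero, Subgroup.card_eq_one] at hn
        exact hA1 hn
      rw [hn]
      exact dvd_pow_self p hn0
    refine dvd_trans (pow_dvd_pow p ?_) (pow_dvd_pow_of_dvd h3 _)
    have h4 : N < p ^ N := Nat.lt_pow_self hp.one_lt
    have h5 : 1 ≤ p - 1 := by have := hp.two_le; omega
    have h6 : 2 * gen p N - 1 = 1 + 2 * ((p - 1) * p ^ N) := by unfold gen; omega
    rw [h6]
    have h7 : p ^ N ≤ (p - 1) * p ^ N := Nat.le_mul_of_pos_left _ h5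
    omega
  have h3 : p ^ (a + (N + 1)) ∣ Fintype.card K * z := by
    have h4 : nHom K (gen p N) ≡ Fintype.card K * z [MOD p ^ (a + (N + 1))] := by
      refine h1.of_dvd ?_
      rw [ham, pow_add]
      exact ⟨m, by ring⟩
    exact (Nat.modEq_zero_iff_dvd.mp (h4.symm.trans (Nat.modEq_zero_iff_dvd.mpr h2)))
  rw [ham, pow_add, mul_assoc] at h3
  have h4 : p ^ (N + 1) ∣ m * z := Nat.dvd_of_mul_dvd_mul_left (pow_pos hp.pos a) h3
  have h5 : p ^ (N + 1) ∣ z :=
    (Nat.Coprime.dvd_of_dvd_mul_left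
      (Nat.Coprime.pow_left _ ((Nat.Prime.coprime_iff_not_dvd hp).mpr hm)) h4)
  have h6 := Nat.le_of_dvd hz0 h5
  have h7 : N + 1 < p ^ (N + 1) := Nat.lt_pow_self hp.one_lt
  omega

end Vale.Agent.P179.H525
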