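import Vale.Agent.P179.H524.Basic
import Vale.Agent.P179.H525.Word

/-! # Homomorphisms from a surface group as tuples -/

namespace P179H524

open Vale.Agent.P179.H525

lemma lift_surfaceRelator {K : Type*} [Group K] {g : ℕ} (f : Fin g × Bool → K) :
    FreeGroup.lift f (surfaceRelator g) = comProd (fun i => (f (i, false), f (i, true))) := by
  rw [surfaceRelator, map_list_prod, comProd, List.map_ofFn]
  congr 2
  funext i
  simp

/-- homomorphisms from the surface group are tuples of pairs with trivial product of
commutators -/
noncomputable def surfaceHomEquiv (g : ℕ) (K : Type*) [Group K] :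
    (SurfaceGroup g →* K) ≃ {f : Fin g → K × K // comProd f = 1} where
  toFun F := ⟨fun i => (F (PresentedGroup.of (i, false)), F (PresentedGroup.of (i, true))), by
    have h1 := lift_surfaceRelator (g := g) (fun x => F (PresentedGroup.of x))
    rw [← h1]
    have h2 : FreeGroup.lift (fun x => F (PresentedGroup.of x)) =
        F.comp (PresentedGroup.mk ({surfaceRelator g} : Set (FreeGroup (Fin g × Bool)))) := by
      ext x
      simp [PresentedGroup.of]
    rw [h2, MonoidHom.comp_apply, PresentedGroup.one_of_mem (Set.mem_singleton _), map_one]⟩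
  invFun f := PresentedGroup.toGroup (f := fun x => if x.2 then (f.1 x.1).2 else (f.1 x.1).1) (by
    intro r hr
    rw [Set.mem_singleton_iff.mp hr, lift_surfaceRelator]
    simpa using f.2)
  left_inv F := by
    refine PresentedGroup.ext ?_
    rintro ⟨i, b⟩
    cases b <;> simp
  right_inv f := by
    apply Subtype.ext
    funext i
    simp

theorem numHom_eq_nHom (g : ℕ) (K : Type*) [Group K] : numHom g K = nHom K g :=
  Nat.card_congr (surfaceHomEquiv g K)

theorem pow_dvd_numHom (g : ℕ) (hg : 0 < g) (K : Type) [Group K] [Finite K] (A : Subgroup K)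
    [A.Normal] (hA : ∀ a ∈ A, ∀ b ∈ A, a * b = b * a) :
    Nat.card A ^ (2 * g - 1) ∣ numHom g K := by
  rw [numHom_eq_nHom]
  exact pow_card_dvd_nHom A (fun a b => Subtype.ext (hA a a.2 b b.2)) hg

end P179H524
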