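import Vale.Agent.P179.H524.W
import Vale.Agent.P179.H525.Surf

/-! # The number of defect zero characters and homomorphisms from surface groups -/

namespace P179H524

open Vale.Agent.P179.H525

lemma factorization_eq_iff {p a b : ℕ} (hp : p.Prime) (ha : a ≠ 0) (hb : b ≠ 0) (h : a ∣ b) :
    a.factorization p = b.factorization p ↔ ¬ p ∣ b / a := by
  obtain ⟨c, rfl⟩ := h
  have hc : c ≠ 0 := by rintro rfl; simp at hb
  rw [Nat.mul_div_cancel_left _ (Nat.pos_of_ne_zero ha), Nat.factorization_mul ha hc,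
    Finsupp.add_apply]
  have : a.factorization p = a.factorization p + c.factorization p ↔ c.factorization p = 0 := by
    omega
  rw [this, Nat.factorization_eq_zero_iff]
  simp [hp, hc]

/-- a Wedderburn decomposition of the complex group algebra of a finite group -/
theorem exists_wedderburn_complex (K : Type) [Group K] [Finite K] :
    ∃ (r : ℕ) (d : Fin r → ℕ) (_ : ∀ i, NeZero (d i)),
      Nonempty (MonoidAlgebra ℂ K ≃ₐ[ℂ] Π i, Matrix (Fin (d i)) (Fin (d i)) ℂ) := by
  have := Fintype.ofFinite K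
  have : NeZero (Nat.card K : ℂ) := ⟨by exact_mod_cast Nat.card_pos.ne'⟩
  have : Module.Finite ℂ (MonoidAlgebra ℂ K) := Module.Finite.of_basis (MonoidAlgebra.basis K ℂ)
  obtain ⟨n, d, hd, h⟩ :=
    IsSemisimpleRing.exists_algEquiv_pi_matrix_of_isAlgClosed ℂ (MonoidAlgebra ℂ K)
  exact ⟨n, d, hd, h⟩

theorem numDZ_eq_card_filter (p : ℕ) [hp : Fact p.Prime] (K : Type) [Group K] [Fintype K]
    (r : ℕ) (d : Fin r → ℕ) [hd : ∀ i, NeZero (d i)]
    (f : MonoidAlgebra ℂ K ≃ₐ[ℂ] Π i, Matrix (Fin (d i)) (Fin (d i)) ℂ) :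
    numDZ p K = (Finset.univ.filter fun i => ¬ p ∣ Fintype.card K / d i).card := by
  have h := numDZ_eq p f.toAlgHom f.surjective (fun x hx => by
    have h0 : x = 0 := f.injective (by rw [map_zero]; exact hx)
    rw [h0]
    exact zero_mem _)
  rw [h, Nat.card_eq_fintype_card, Fintype.card_subtype]
  congr 1
  refine Finset.filter_congr fun i _ => ?_
  rw [Nat.card_eq_fintype_card,
    factorization_eq_iff hp.out (NeZero.ne _) Fintype.card_ne_zero (dvd_card f hd i)]

theorem numHom_modEq' (p : ℕ) [hp : Fact p.Prime] (K : Type) [Group K] [Finite K] (N : ℕ) :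
    numHom (gN p N) K ≡ Nat.card K * numDZ p K [MOD Nat.card K * p ^ (N + 1)] := by
  have := Fintype.ofFinite K
  obtain ⟨r, d, hd, ⟨f⟩⟩ := exists_wedderburn_complex K
  rw [numHom_eq_nHom, numDZ_eq_card_filter p K r d f, Nat.card_eq_fintype_card]
  exact nHom_modEq f hp.out hd N

theorem numHom_modEq (p : ℕ) [Fact p.Prime] (K : Type) [Group K] [Finite K] (N : ℕ) :
    numHom (gN p N) K ≡ Nat.card K * numDZ p K [MOD p ^ (N + 1)] :=
  (numHom_modEq' p K N).of_dvd (Dvd.intro_left _ rfl)

theorem numDZ_eq_zero (p : ℕ) [hp : Fact p.Prime] (K : Type) [Group K] [Finite K]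
    (h : ¬ OpTrivial p K) : numDZ p K = 0 := by
  have := Fintype.ofFinite K
  obtain ⟨r, d, hd, ⟨f⟩⟩ := exists_wedderburn_complex K
  rw [numDZ_eq_card_filter p K r d f, Finset.card_eq_zero, Finset.filter_eq_empty_iff]
  intro i _
  rw [not_not]
  simp only [OpTrivial, not_forall] at h
  obtain ⟨R, hRn, hR, hR1⟩ := h
  exact dvd_of_normal f hd hp.out R hR hR1 i

end P179H524
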