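import Mathlib

/-! # Words with trivial product and cyclic rotation -/

namespace P179H524

open Finset

/-- A sum of an invariant function over a set with a permutation of `p`-power order is the sum over
the fixed points, in characteristic `p`. -/
theorem sum_eq_sum_fixed {X R : Type*} [Fintype X] [DecidableEq X] [CommRing R] (p : ℕ)
    [hp : Fact p.Prime] [CharP R p] (σ : Equiv.Perm X) (n : ℕ) (hσ : σ ^ p ^ n = 1) (F : X → R)
    (hF : ∀ x, F (σ x) = F x) : ∑ x, F x = ∑ x with σ x = x, F x := by
  classical
  rw [← Finset.sum_fiberwise_of_maps_to (t := univ.image F) (g := F)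
      (fun x _ => mem_image_of_mem F (mem_univ x)),
    ← Finset.sum_fiberwise_of_maps_to (t := univ.image F) (g := F) (s := univ.filter fun x => σ x = x)
      (fun x _ => mem_image_of_mem F (mem_univ x))]
  refine Finset.sum_congr rfl fun r _ => ?_
  have h1 : ∑ x with F x = r, F x = (#{x | F x = r} : R) * r := by
    rw [Finset.sum_congr rfl (fun x hx => (Finset.mem_filter.mp hx).2), sum_const, nsmul_eq_mul]
  have h2 : ∑ x ∈ univ.filter (fun x => σ x = x) with F x = r, F x =
      (#{x ∈ univ.filter (fun x => σ x = x) | F x = r} : R) * r := by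
    rw [Finset.sum_congr rfl (fun x hx => (Finset.mem_filter.mp hx).2), sum_const, nsmul_eq_mul]
  rw [h1, h2]
  congr 1
  -- the counts are congruent
  have hF' : ∀ x, F (σ x) = r ↔ F x = r := fun x => by rw [hF]
  let τ : Equiv.Perm {x // F x = r} := σ.subtypePerm hF'
  have hτ : τ ^ p ^ n = 1 := by
    ext x
    have h3 : ∀ m : ℕ, (((τ ^ m) x : {x // F x = r}) : X) = (σ ^ m) x := by
      intro m
      induction m with
      | zero => simp
      | succ m ih => rw [pow_succ', pow_succ', Equiv.Perm.mul_apply, Equiv.Perm.mul_apply, ← ih]; rfl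
    rw [h3, hσ]
    rfl
  have h4 := Equiv.Perm.card_compl_support_modEq hτ
  have h5 : Fintype.card {x // F x = r} = #{x | F x = r} := Fintype.card_subtype _
  have h6 : #(τ.supportᶜ) = #{x ∈ univ.filter (fun x => σ x = x) | F x = r} := by
    refine Finset.card_bij (fun x _ => (x : X)) ?_ ?_ ?_
    · intro x hx
      rw [mem_compl, Equiv.Perm.mem_support, not_not] at hx
      simp only [mem_filter, mem_univ, true_and]
      exact ⟨congrArg Subtype.val hx, x.2⟩
    · intro x _ y _ h
      exact Subtype.ext h
    · intro x hx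
      simp only [mem_filter, mem_univ, true_and] at hx
      refine ⟨⟨x, hx.2⟩, ?_, rfl⟩
      rw [mem_compl, Equiv.Perm.mem_support, not_not]
      exact Subtype.ext hx.1
  rw [h5, h6] at h4
  exact ((CharP.natCast_eq_natCast R p).mpr h4).symm

/-- the product of a word -/
def wprod {K : Type*} [Group K] {N : ℕ} (w : Fin N → K) : K := (List.ofFn w).prod

/-- rotation of words -/
def rot {K : Type*} (N : ℕ) : Equiv.Perm (Fin N → K) where
  toFun w := w ∘ finRotate N
  invFun w := w ∘ (finRotate N).symm
  left_inv w := by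
    funext i
    exact congrArg w ((finRotate N).apply_symm_apply i)
  right_inv w := by
    funext i
    exact congrArg w ((finRotate N).symm_apply_apply i)

lemma rot_apply {K : Type*} (N : ℕ) (w : Fin N → K) (i : Fin N) :
    rot N w i = w (finRotate N i) := rfl

lemma wprod_rot {K : Type*} [Group K] {N : ℕ} (w : Fin N → K) (h : wprod w = 1) :
    wprod (rot N w) = 1 := by
  cases N with
  | zero => simp [wprod]
  | succ m =>
    rw [wprod, List.ofFn_succ, List.prod_cons] at h
    rw [wprod, List.ofFn_succ', List.concat_eq_append, List.prod_append, List.prod_singleton]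
    have h1 : (fun i : Fin m => rot (m + 1) w i.castSucc) = fun i => w i.succ := by
      funext i
      rw [rot_apply, finRotate_apply, Fin.coeSucc_eq_succ]
    have h2 : rot (m + 1) w (Fin.last m) = w 0 := by
      rw [rot_apply, finRotate_last]
    rw [h1, h2]
    exact mul_eq_one_comm.mp h

lemma finRotate_pow (N : ℕ) : (finRotate N) ^ N = 1 := by
  match N with
  | 0 => rfl
  | 1 => exact Subsingleton.elim _ _
  | m + 2 =>
    have h : orderOf (finRotate (m + 2)) = m + 2 := by
      rw [isCycle_finRotate.orderOf, support_finRotate, card_univ, Fintype.card_fin]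
    have h2 := pow_orderOf_eq_one (finRotate (m + 2))
    rwa [h] at h2

lemma rot_pow_apply {K : Type*} (N k : ℕ) (w : Fin N → K) (i : Fin N) :
    ((rot N : Equiv.Perm (Fin N → K)) ^ k) w i = w (((finRotate N) ^ k) i) := by
  induction k generalizing w i with
  | zero => rfl
  | succ k ih =>
    rw [pow_succ, Equiv.Perm.mul_apply, ih, rot_apply, pow_succ', Equiv.Perm.mul_apply]

lemma rot_pow {K : Type*} (N : ℕ) : (rot N : Equiv.Perm (Fin N → K)) ^ N = 1 := by
  ext w : 1
  funext i
  rw [rot_pow_apply, finRotate_pow]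
  rfl

lemma wprod_rot_iff {K : Type*} [Group K] {N : ℕ} (w : Fin N → K) :
    wprod (rot N w) = 1 ↔ wprod w = 1 := by
  refine ⟨fun h => ?_, wprod_rot w⟩
  have h1 : ∀ k, wprod (((rot N) ^ k) (rot N w)) = 1 := by
    intro k
    induction k with
    | zero => exact h
    | succ k ih => rw [pow_succ', Equiv.Perm.mul_apply]; exact wprod_rot _ ih
  cases N with
  | zero => simp [wprod]
  | succ m =>
    have h2 := h1 m
    rw [← Equiv.Perm.mul_apply, ← pow_succ, rot_pow] at h2
    exact h2

/-- the set of words with product one, rotated -/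
def rotOne (K : Type*) [Group K] (N : ℕ) : Equiv.Perm {w : Fin N → K // wprod w = 1} :=
  (rot N).subtypePerm fun w => wprod_rot_iff w

lemma rotOne_coe {K : Type*} [Group K] (N : ℕ) (w : {w : Fin N → K // wprod w = 1}) :
    (rotOne K N w : Fin N → K) = rot N w := rfl

lemma rotOne_pow (K : Type*) [Group K] (N : ℕ) : (rotOne K N) ^ N = 1 := by
  have h3 : ∀ (m : ℕ) (x : {w : Fin N → K // wprod w = 1}),
      (((rotOne K N) ^ m) x : Fin N → K) = ((rot N) ^ m) x := by
    intro m
    induction m with
    | zero => intro x; rfl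
    | succ m ih =>
      intro x
      rw [pow_succ', pow_succ', Equiv.Perm.mul_apply, Equiv.Perm.mul_apply, ← ih]; rfl
  ext x : 2
  rw [h3, rot_pow]
  rfl

/-- words fixed by rotation are constant -/
lemma const_of_rot {K : Type*} {m : ℕ} (w : Fin (m + 1) → K) (h : rot (m + 1) w = w)
    (i : Fin (m + 1)) : w i = w 0 := by
  induction i using Fin.induction with
  | zero => rfl
  | succ i ih =>
    rw [← ih]
    have h1 := congrFun h i.castSucc
    rw [rot_apply, finRotate_apply, Fin.coeSucc_eq_succ] at h1
    exact h1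

/-- **Words.** In characteristic `p` the sum over the words of length `p ^ n` with trivial product
is the `p ^ n`-th power of the sum over the elements with `g ^ p ^ n = 1`. -/
theorem sum_words {K R : Type*} [Group K] [Fintype K] [DecidableEq K] [CommRing R] (p : ℕ)
    [hp : Fact p.Prime] [CharP R p] (n : ℕ) (f : K → R) :
    ∑ w : {w : Fin (p ^ n) → K // wprod w = 1}, ∏ i, f (w.1 i) =
      (∑ g with g ^ p ^ n = 1, f g) ^ p ^ n := by
  classical
  rw [sum_eq_sum_fixed p (rotOne K (p ^ n)) n (rotOne_pow K _)]
  · rw [sum_pow_char_pow]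
    symm
    have hN : p ^ n ≠ 0 := pow_ne_zero _ hp.out.ne_zero
    have hprod : ∀ g : K, wprod (fun _ : Fin (p ^ n) => g) = g ^ p ^ n := by
      intro g
      simp [wprod]
    refine Finset.sum_bij (fun g hg => ⟨fun _ => g, by
      rw [hprod]; exact (mem_filter.mp hg).2⟩) ?_ ?_ ?_ ?_
    · intro g hg
      simp only [mem_filter, mem_univ, true_and]
      rfl
    · intro g hg g' hg' h
      have h1 := congrArg Subtype.val h
      exact congrFun h1 ⟨0, Nat.pos_of_ne_zero hN⟩
    · rintro ⟨w, hw⟩ hw'
      simp only [mem_filter, mem_univ, true_and] at hw'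
      have h1 : rot (p ^ n) w = w := congrArg Subtype.val hw'
      obtain ⟨m, hm⟩ : ∃ m, p ^ n = m + 1 := ⟨p ^ n - 1, by omega⟩
      have h2 : ∃ g, w = fun _ => g := by
        clear hw' hw
        revert w
        rw [hm]
        intro w h1
        exact ⟨w 0, funext fun i => const_of_rot w h1 i⟩
      obtain ⟨g, rfl⟩ := h2
      refine ⟨g, ?_, rfl⟩
      rw [mem_filter]
      exact ⟨mem_univ _, by rw [← hprod]; exact hw⟩
    · intro g hg
      simp
  · intro w
    rw [rotOne_coe]
    exact Equiv.prod_comp (finRotate (p ^ n)) (fun i => f (w.1 i))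

/-- powers in the group algebra -/
theorem pow_eq_sum_words {K R : Type*} [Group K] [Fintype K] [CommRing R] (N : ℕ)
    (x : MonoidAlgebra R K) :
    x ^ N = ∑ w : Fin N → K, MonoidAlgebra.single (wprod w) (∏ i, x.coeff (w i)) := by
  classical
  induction N with
  | zero => simp [wprod, MonoidAlgebra.one_def]
  | succ N ih =>
    have hx : x = ∑ g : K, MonoidAlgebra.single g (x.coeff g) := by
      ext k
      rw [MonoidAlgebra.coeff_sum, Finsupp.finsetSum_apply, Finset.sum_eq_single k]
      · simp
      · intro y _ hy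
        simp [hy]
      · simp
    have hx2 : ∀ y, x * y = (∑ g : K, MonoidAlgebra.single g (x.coeff g)) * y :=
      fun y => congrArg (· * y) hx
    rw [pow_succ', ih, hx2, Finset.sum_mul_sum, ← Fintype.sum_prod_type',
      ← Equiv.sum_comp (Fin.consEquiv fun _ : Fin (N + 1) => K)]
    refine Finset.sum_congr rfl fun z _ => ?_
    rw [MonoidAlgebra.single_mul_single]
    congr 1
    · rw [wprod, wprod, List.ofFn_succ, List.prod_cons]
      rfl
    · rw [Fin.prod_univ_succ]
      rfl

theorem coeff_one_pow {K R : Type*} [Group K] [Fintype K] [DecidableEq K] [CommRing R] (N : ℕ)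
    (x : MonoidAlgebra R K) :
    (x ^ N).coeff 1 = ∑ w : {w : Fin N → K // wprod w = 1}, ∏ i, x.coeff (w.1 i) := by
  rw [pow_eq_sum_words, MonoidAlgebra.coeff_sum, Finsupp.finsetSum_apply]
  simp only [MonoidAlgebra.coeff_single, Finsupp.single_apply]
  rw [← Finset.sum_filter]
  exact Finset.sum_subtype _ (by simp) _

end P179H524
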