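import Vale.Agent.P179.H525.DZ
import Vale.Agent.P179.H525.Rot

/-! # The number of pairs whose commutator is a `p`-element -/

namespace P179H524

open Vale.Agent.P179.H525 Finset IsLocalRing

/-- There is a valuation subring of `ℂ` with `p` in its maximal ideal. -/
theorem exists_valuationSubring {p : ℕ} (hp : p.Prime) :
    ∃ O : ValuationSubring ℂ, CharP (ResidueField O) p := by
  let A : Subring ℂ := (Int.castRingHom ℂ).range
  let a : A := ⟨(p : ℂ), ⟨p, by simp⟩⟩
  have hI : Ideal.span {a} ≠ ⊤ := by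
    intro h
    have h1 : (1 : A) ∈ Ideal.span {a} := by rw [h]; trivial
    rw [Ideal.mem_span_singleton] at h1
    obtain ⟨⟨_, ⟨b, rfl⟩⟩, hb⟩ := h1
    have h2 : (1 : ℂ) = p * (b : ℂ) := by
      have := congrArg Subtype.val hb
      simpa [a] using this
    have h3 : (1 : ℤ) = p * b := by exact_mod_cast h2
    have h4 : (p : ℤ) ∣ 1 := ⟨b, h3⟩
    have h5 : p ∣ 1 := by exact_mod_cast h4
    exact hp.one_lt.ne' (Nat.dvd_one.mp h5)
  obtain ⟨O, _, hO⟩ := Ideal.image_subset_nonunits_valuationSubring _ hI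
  refine ⟨O, (CharP.charP_iff_prime_eq_zero hp).mpr ?_⟩
  have h1 : (p : ℂ) ∈ O.nonunits := hO ⟨a, Ideal.mem_span_singleton_self a, rfl⟩
  obtain ⟨h2, h3⟩ := ValuationSubring.mem_nonunits_iff_exists_mem_maximalIdeal.mp h1
  have h4 : (⟨(p : ℂ), h2⟩ : O) = (p : O) := Subtype.ext (by simp)
  rw [h4] at h3
  have h5 := (residue_eq_zero_iff (p : O)).mpr h3
  rwa [map_natCast] at h5

section

variable {K : Type*} [Group K] [Fintype K] [DecidableEq K]
variable {ι : Type*} [Fintype ι] {d : ι → ℕ} (φ : MonoidAlgebra ℂ K ≃ₐ[ℂ] MatAlg d)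

lemma single_mul_mul_single' {m : ℕ} (a : Fin m) (X : Matrix (Fin m) (Fin m) ℂ) :
    Matrix.single a a (1 : ℂ) * X * Matrix.single a a (1 : ℂ) =
      X a a • Matrix.single a a (1 : ℂ) := by
  rw [Matrix.single_mul_mul_single]
  simp

lemma trace_mul_single' {m : ℕ} (a : Fin m) (X : Matrix (Fin m) (Fin m) ℂ) :
    (X * Matrix.single a a (1 : ℂ)).trace = X a a := by
  rw [Matrix.trace_mul_single]
  simp

theorem residue_omega (hd : ∀ i, NeZero (d i)) (p : ℕ) [hp : Fact p.Prime] (O : ValuationSubring ℂ)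
    [CharP (ResidueField O) p] {n : ℕ} (hn : 1 ≤ n) (i : ι) (ω : ℂ)
    (hω : ∑ g with g ^ p ^ n = 1, rho φ g i = ω • (1 : Matrix (Fin (d i)) (Fin (d i)) ℂ)) :
    ∃ h : ω ∈ O, residue O ⟨ω, h⟩ = if p ∣ Fintype.card K / d i then 0 else 1 := by
  classical
  have hdi : d i ≠ 0 := NeZero.ne (d i)
  have hdiC : (d i : ℂ) ≠ 0 := by exact_mod_cast hdi
  have hK : (Fintype.card K : ℂ) ≠ 0 := by exact_mod_cast Fintype.card_ne_zero
  let a : Fin (d i) := ⟨0, Nat.pos_of_ne_zero hdi⟩
  let F : K → ℂ := fun g => rho φ g i a a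
  obtain ⟨g0, hg0⟩ := Finite.exists_max (fun g => O.valuation (F g))
  have hF1 : F 1 = 1 := by simp [F, rho_one]
  have hF0 : F g0 ≠ 0 := by
    intro h
    have := hg0 1
    rw [h, hF1, map_zero, map_one] at this
    exact absurd this (by simp)
  let E : Matrix (Fin (d i)) (Fin (d i)) ℂ := (F g0)⁻¹ • (rho φ g0 i * Matrix.single a a 1)
  have htr : ∀ g, (E * rho φ g i).trace = (F g0)⁻¹ * F (g * g0) := by
    intro g
    rw [Matrix.smul_mul, Matrix.trace_smul, smul_eq_mul, Matrix.trace_mul_comm, ← Matrix.mul_assoc,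
      trace_mul_single', ← Pi.mul_apply, ← rho_mul]
  have hE : E * E = E := by
    have h1 : rho φ g0 i * Matrix.single a a (1 : ℂ) * (rho φ g0 i * Matrix.single a a (1 : ℂ)) =
        F g0 • (rho φ g0 i * Matrix.single a a (1 : ℂ)) := by
      rw [Matrix.mul_assoc, ← Matrix.mul_assoc _ (rho φ g0 i), single_mul_mul_single',
        Matrix.mul_smul]
    rw [Matrix.smul_mul, Matrix.mul_smul, h1, smul_smul, smul_smul, mul_assoc,
      inv_mul_cancel₀ hF0, mul_one]
  set c : ℕ := Fintype.card K / d i with hc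
  have hcC : (c : ℂ) = Fintype.card K / d i := by
    rw [hc, Nat.cast_div (dvd_card φ hd i) hdiC]
  let x : MonoidAlgebra ℂ K := φ.symm (Pi.single i ((c : ℂ) • E))
  have hφx : φ x = Pi.single i ((c : ℂ) • E) := φ.apply_symm_apply _
  have hx : ∀ g, x.coeff g⁻¹ = (F g0)⁻¹ * F (g * g0) := by
    intro g
    have h1 := coeff_eq φ x g
    rw [Finset.sum_eq_single i] at h1
    · rw [hφx, Pi.single_eq_same, Matrix.smul_mul, Matrix.trace_smul, htr, smul_eq_mul, hcC] at h1
      have h2 : (d i : ℂ) * ((Fintype.card K : ℂ) / d i * ((F g0)⁻¹ * F (g * g0))) =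
          (Fintype.card K : ℂ) * ((F g0)⁻¹ * F (g * g0)) := by
        field_simp
      rw [h2] at h1
      exact mul_left_cancel₀ hK h1
    · intro j _ hj
      rw [hφx, Pi.single_eq_of_ne hj]
      simp
    · simp
  have hxx : x * x = (c : ℂ) • x := by
    apply φ.injective
    rw [map_mul, map_smul, hφx, ← Pi.single_mul, ← Pi.single_smul, Matrix.smul_mul, Matrix.mul_smul, hE]
  have hxN : ∀ m : ℕ, x ^ (m + 1) = (c : ℂ) ^ m • x := by
    intro m
    induction m with
    | zero => simp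
    | succ m ih => rw [pow_succ, ih, smul_mul_assoc, hxx, smul_smul, pow_succ]
  have hx1 : x.coeff 1 = 1 := by
    have := hx 1
    rw [inv_one, one_mul, inv_mul_cancel₀ hF0] at this
    exact this
  have hmem : ∀ g, x.coeff g ∈ O := by
    intro g
    have := hx g⁻¹
    rw [inv_inv] at this
    rw [this, ← ValuationSubring.valuation_le_one_iff, map_mul, map_inv₀]
    have h2 := hg0 (g⁻¹ * g0)
    have h3 : 0 < O.valuation (F g0) := by
      rw [zero_lt_iff]
      exact (Valuation.ne_zero_iff _).mpr hF0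
    calc (O.valuation (F g0))⁻¹ * O.valuation (F (g⁻¹ * g0)) ≤
        (O.valuation (F g0))⁻¹ * O.valuation (F g0) := by gcongr
      _ = 1 := inv_mul_cancel₀ h3.ne'
  let f : K → O := fun g => ⟨x.coeff g, hmem g⟩
  have hω2 : ω = ∑ g with g ^ p ^ n = 1, x.coeff g := by
    have h1 : ∑ g with g ^ p ^ n = 1, x.coeff g = ∑ g with g ^ p ^ n = 1, x.coeff g⁻¹ := by
      refine Finset.sum_bij (fun g _ => g⁻¹) ?_ ?_ ?_ ?_
      · intro g hg
        simpa using hg
      · intro g _ g' _ h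
        exact inv_injective h
      · intro g hg
        exact ⟨g⁻¹, by simpa using hg, inv_inv g⟩
      · intro g _
        rw [inv_inv]
    have h2 : ∀ g, x.coeff g⁻¹ = (E * rho φ g i).trace := fun g => by rw [hx, htr]
    rw [h1, Finset.sum_congr rfl (fun g _ => h2 g), ← Matrix.trace_sum, ← Finset.mul_sum, hω,
      Matrix.mul_smul, Matrix.mul_one, Matrix.trace_smul, smul_eq_mul]
    have h3 := htr 1
    rw [rho_one, Pi.one_apply, Matrix.mul_one, one_mul, inv_mul_cancel₀ hF0] at h3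
    rw [h3, mul_one]
  have hωf : ω = ((∑ g with g ^ p ^ n = 1, f g : O) : ℂ) := by
    rw [hω2]
    push_cast
    rfl
  have hωO : ω ∈ O := by rw [hωf]; exact SetLike.coe_mem _
  refine ⟨hωO, ?_⟩
  have hωO2 : (⟨ω, hωO⟩ : O) = ∑ g with g ^ p ^ n = 1, f g := Subtype.ext hωf
  have hN : 1 < p ^ n := Nat.one_lt_pow (by omega) hp.out.one_lt
  have hwords := sum_words p n (fun g => residue O (f g))
  have h1 : ∑ w : {w : Fin (p ^ n) → K // wprod w = 1}, ∏ i, f (w.1 i) = (c : O) ^ (p ^ n - 1) := by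
    apply Subtype.ext
    have h2 := coeff_one_pow (p ^ n) x
    obtain ⟨m, hm⟩ : ∃ m, p ^ n = m + 1 := ⟨p ^ n - 1, by omega⟩
    have h3 : (x ^ (p ^ n)).coeff 1 = (c : ℂ) ^ (p ^ n - 1) := by
      rw [hm, hxN, Nat.add_sub_cancel, MonoidAlgebra.coeff_smul_apply, hx1, smul_eq_mul, mul_one]
    rw [h3] at h2
    push_cast
    exact h2.symm
  have h2 : ∑ w : {w : Fin (p ^ n) → K // wprod w = 1}, ∏ i, residue O (f (w.1 i)) =
      (c : ResidueField O) ^ (p ^ n - 1) := by
    have := congrArg (residue O) h1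
    simpa only [map_sum, map_prod, map_pow, map_natCast] using this
  rw [h2, ← map_sum, ← hωO2] at hwords
  by_cases hpc : p ∣ c
  · rw [if_pos hpc]
    rw [(CharP.cast_eq_zero_iff (ResidueField O) p c).mpr hpc, zero_pow (by omega)] at hwords
    exact pow_eq_zero_iff (by omega) |>.mp hwords.symm
  · rw [if_neg hpc]
    have hc0 : (c : ResidueField O) ≠ 0 := fun h =>
      hpc ((CharP.cast_eq_zero_iff (ResidueField O) p c).mp h)
    have h3 : (c : ResidueField O) ^ (p ^ n) = c := by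
      have := map_natCast (iterateFrobenius (ResidueField O) p n) c
      rwa [iterateFrobenius_def] at this
    have h4 : (c : ResidueField O) * (residue O ⟨ω, hωO⟩) ^ p ^ n = c := by
      rw [← hwords, ← pow_succ']
      have : p ^ n - 1 + 1 = p ^ n := by omega
      rw [this, h3]
    have h5 : (residue O ⟨ω, hωO⟩) ^ p ^ n = 1 := by
      have := mul_left_cancel₀ hc0 (h4.trans (mul_one _).symm)
      exact this
    have h6 : (residue O ⟨ω, hωO⟩ - 1) ^ p ^ n = 0 := by
      rw [sub_pow_char_pow, h5, one_pow, sub_self]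
    exact sub_eq_zero.mp (pow_eq_zero_iff (by omega) |>.mp h6)

/-- the sum of the elements with `g ^ N = 1` acts as a scalar -/
lemma sum_rho_scalar (hd : ∀ i, NeZero (d i)) (N : ℕ) (i : ι) :
    ∃ ω : ℂ, ∑ g : K with g ^ N = 1, rho φ g i = ω • (1 : Matrix (Fin (d i)) (Fin (d i)) ℂ) := by
  refine ⟨_, scalar_of_commute φ i _ fun k => ?_⟩
  rw [Finset.mul_sum, Finset.sum_mul]
  refine Finset.sum_bij (fun g _ => k * g * k⁻¹) ?_ ?_ ?_ ?_
  · intro g hg
    simp only [mem_filter, mem_univ, true_and] at hg ⊢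
    rw [conj_pow, hg, mul_one, mul_inv_cancel]
  · intro g _ g' _ h
    simpa using h
  · intro g hg
    simp only [mem_filter, mem_univ, true_and] at hg
    refine ⟨k⁻¹ * g * k, ?_, by group⟩
    simp only [mem_filter, mem_univ, true_and]
    have : k⁻¹ * g * k = k⁻¹ * g * k⁻¹⁻¹ := by rw [inv_inv]
    rw [this, conj_pow, hg, mul_one, mul_inv_cancel]
  · intro g _
    rw [← Pi.mul_apply, ← Pi.mul_apply, ← rho_mul, ← rho_mul, inv_mul_cancel_right]

/-- the number of pairs whose commutator satisfies `z ^ N = 1` -/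
theorem card_comm_eq (hd : ∀ i, NeZero (d i)) (N : ℕ) (ω : ι → ℂ)
    (hω : ∀ i, ∑ g : K with g ^ N = 1, rho φ g i = ω i • (1 : Matrix (Fin (d i)) (Fin (d i)) ℂ)) :
    (Nat.card {t : K × K // (t.1 * t.2 * t.1⁻¹ * t.2⁻¹) ^ N = 1} : ℂ) =
      Fintype.card K * ∑ i, ω i := by
  have hK : (Fintype.card K : ℂ) ≠ 0 := by exact_mod_cast Fintype.card_ne_zero
  have h1 : ∀ z : K, (comSum ℂ K).coeff z = ∑ t : K × K with t.1 * t.2 * t.1⁻¹ * t.2⁻¹ = z, (1 : ℂ) := by
    intro z
    rw [comSum, MonoidAlgebra.coeff_sum, Finsupp.finsetSum_apply]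
    simp only [MonoidAlgebra.coeff_single, Finsupp.single_apply]
    rw [Finset.sum_filter]
  have h2 : ∑ y : K with y ^ N = 1, (comSum ℂ K).coeff y⁻¹ =
      (Nat.card {t : K × K // (t.1 * t.2 * t.1⁻¹ * t.2⁻¹) ^ N = 1} : ℂ) := by
    have h3 : ∑ y : K with y ^ N = 1, (comSum ℂ K).coeff y⁻¹ =
        ∑ y : K with y ^ N = 1, (comSum ℂ K).coeff y := by
      refine Finset.sum_bij (fun g _ => g⁻¹) ?_ ?_ ?_ ?_
      · intro g hg
        simpa using hg
      · intro g _ g' _ h
        exact inv_injective h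
      · intro g hg
        exact ⟨g⁻¹, by simpa using hg, inv_inv g⟩
      · intro g _
        rfl
    rw [h3, Finset.sum_congr rfl (fun y _ => h1 y), Nat.card_eq_fintype_card, Fintype.card_subtype,
      Finset.cast_card]
    rw [← Finset.sum_fiberwise_of_maps_to (s := univ.filter fun t : K × K =>
      (t.1 * t.2 * t.1⁻¹ * t.2⁻¹) ^ N = 1) (t := univ.filter fun y : K => y ^ N = 1)
      (g := fun t => t.1 * t.2 * t.1⁻¹ * t.2⁻¹) (by
        intro t ht
        simpa using ht)]
    refine Finset.sum_congr rfl fun y hy => ?_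
    refine Finset.sum_congr ?_ fun _ _ => rfl
    ext t
    simp only [mem_filter, mem_univ, true_and] at hy ⊢
    constructor
    · intro h
      exact ⟨by rw [h]; exact hy, h⟩
    · exact fun h => h.2
  have h4 : (Fintype.card K : ℂ) * ∑ y : K with y ^ N = 1, (comSum ℂ K).coeff y⁻¹ =
      (Fintype.card K : ℂ) * (Fintype.card K * ∑ i, ω i) := by
    rw [Finset.mul_sum, Finset.sum_congr rfl (fun y _ => coeff_eq φ (comSum ℂ K) y),
      Finset.sum_comm, Finset.mul_sum, Finset.mul_sum]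
    refine Finset.sum_congr rfl fun i _ => ?_
    have hdi : (d i : ℂ) ≠ 0 := by exact_mod_cast (NeZero.ne (d i))
    rw [← Finset.mul_sum, ← Matrix.trace_sum, ← Finset.mul_sum, hω i, map_comSum φ hd,
      Matrix.smul_mul, Matrix.one_mul, smul_smul, Matrix.trace_smul, Matrix.trace_one,
      Fintype.card_fin, smul_eq_mul]
    field_simp
  rw [h2] at h4
  exact mul_left_cancel₀ hK h4

end

lemma exists_pow_iff {K : Type*} [Group K] [Finite K] (p : ℕ) [hp : Fact p.Prime] (g : K) :
    (∃ n, g ^ p ^ n = 1) ↔ g ^ p ^ (Nat.card K) = 1 := by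
  refine ⟨fun ⟨n, hn⟩ => ?_, fun h => ⟨_, h⟩⟩
  obtain ⟨j, hj, hj2⟩ := (Nat.dvd_prime_pow hp.out).mp (orderOf_dvd_of_pow_eq_one hn)
  rw [← orderOf_dvd_iff_pow_eq_one, hj2]
  apply pow_dvd_pow
  have h1 : j < p ^ j := Nat.lt_pow_self hp.out.one_lt
  have h2 : orderOf g ≤ Nat.card K := orderOf_le_card
  omega

/-- **The number of pairs whose commutator is a `p`-element.** -/
theorem card_comm_pElem (p : ℕ) [hp : Fact p.Prime] (K : Type) [Group K] [Finite K] :
    Nat.card {t : K × K // ∃ n, (t.1 * t.2 * t.1⁻¹ * t.2⁻¹) ^ p ^ n = 1} ≡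
      Nat.card K * numDZ p K [MOD p ^ ((Nat.card K).factorization p + 1)] := by
  classical
  have := Fintype.ofFinite K
  obtain ⟨r, d, hd, ⟨φ⟩⟩ := exists_wedderburn_complex K
  obtain ⟨O, hO⟩ := exists_valuationSubring hp.out
  set v := (Nat.card K).factorization p with hv
  set A := Nat.card {t : K × K // ∃ n, (t.1 * t.2 * t.1⁻¹ * t.2⁻¹) ^ p ^ n = 1} with hA
  have hA2 : A = Nat.card {t : K × K // (t.1 * t.2 * t.1⁻¹ * t.2⁻¹) ^ p ^ (Nat.card K) = 1} :=
    Nat.card_congr (Equiv.subtypeEquivRight fun t => exists_pow_iff p _)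
  choose ω hω using fun i => sum_rho_scalar φ hd (p ^ (Nat.card K)) i
  have hres := fun i => residue_omega φ hd p O (n := Nat.card K) Nat.card_pos i (ω i) (hω i)
  choose hmem hres using hres
  have hcount := card_comm_eq φ hd (p ^ (Nat.card K)) ω hω
  rw [← hA2] at hcount
  have hz := numDZ_eq_card_filter p K r d φ
  -- the difference
  let R : O := ∑ i, (⟨ω i, hmem i⟩ : O) - (numDZ p K : O)
  have hR : residue O R = 0 := by
    rw [map_sub, map_sum, Finset.sum_congr rfl (fun i _ => hres i), map_natCast, hz,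
      Finset.card_filter, sub_eq_zero]
    push_cast
    refine Finset.sum_congr rfl fun i _ => ?_
    by_cases h : p ∣ Fintype.card K / d i <;> simp [h]
  have hD : (((A : ℤ) - (Nat.card K * numDZ p K : ℕ) : ℤ) : O) = (Nat.card K : O) * R := by
    apply Subtype.ext
    push_cast
    rw [hcount, Nat.card_eq_fintype_card]
    simp only [R]
    push_cast
    ring
  set D : ℤ := (A : ℤ) - (Nat.card K * numDZ p K : ℕ) with hDdef
  have hzero : ∀ z : ℤ, ((z : O) : O) ∈ maximalIdeal O → (p : ℤ) ∣ z := by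
    intro z hz
    have h1 := (residue_eq_zero_iff (z : O)).mpr hz
    rw [map_intCast] at h1
    exact (CharP.intCast_eq_zero_iff (ResidueField O) p z).mp h1
  have hRm : R ∈ maximalIdeal O := (residue_eq_zero_iff R).mp hR
  have hdiv : ∀ j ≤ v + 1, ((p ^ j : ℕ) : ℤ) ∣ D := by
    intro j
    induction j with
    | zero => intro _; simp
    | succ j ih =>
      intro hj
      obtain ⟨D', hD'⟩ := ih (by omega)
      obtain ⟨m, hm⟩ : p ^ j ∣ Nat.card K := (pow_dvd_pow p (by omega)).trans (Nat.ordProj_dvd _ _)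
      have h1 : ((D' : ℤ) : O) = (m : O) * R := by
        have h2 : ((p ^ j : ℕ) : O) ≠ 0 := by
          intro h
          have := congrArg (fun x : O => (x : ℂ)) h
          simp at this
          exact hp.out.ne_zero this.1
        apply mul_left_cancel₀ h2
        have h3 : ((D : ℤ) : O) = ((p ^ j : ℕ) : O) * (D' : O) := by
          rw [hD']; push_cast; rfl
        rw [← h3, hD, hm]
        push_cast
        ring
      have h4 : (p : ℤ) ∣ D' := hzero D' (by
        rw [h1]
        exact Ideal.mul_mem_left _ _ hRm)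
      obtain ⟨D'', rfl⟩ := h4
      exact ⟨D'', by rw [hD', pow_succ]; push_cast; ring⟩
  have h := hdiv (v + 1) le_rfl
  exact (Nat.modEq_iff_dvd.mpr h).symm

end P179H524
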