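import Vale.Agent.P179.H525.Chars

/-! # Simple modules of a quotient by a normal `p`-subgroup -/

namespace P179H524

open Representation

/-- A `p`-group acting linearly on a nonzero vector space in characteristic `p` fixes a nonzero
vector. -/
theorem exists_fixed_vector {p : ℕ} [hp : Fact p.Prime] {k P V : Type*} [Field k] [CharP k p]
    [Group P] [Finite P] (hP : IsPGroup p P) [AddCommGroup V] [Module k V] [Nontrivial V]
    (ρ : Representation k P V) : ∃ v : V, v ≠ 0 ∧ ∀ g, ρ g v = v := by
  classical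
  let _ : Algebra (ZMod p) k := ZMod.algebra k p
  let _ : Module (ZMod p) V := Module.compHom V (algebraMap (ZMod p) k)
  obtain ⟨v, hv⟩ := exists_ne (0 : V)
  let W : Submodule (ZMod p) V := Submodule.span (ZMod p) (Set.range fun g => ρ g v)
  have hfin : Module.Finite (ZMod p) W := Module.Finite.span_of_finite _ (Set.finite_range _)
  have hW : Finite W := Module.finite_of_finite (ZMod p)
  have hsmul : ∀ (c : ZMod p) (g : P) (w : V), ρ g (c • w) = c • ρ g w := by
    intro c g w
    change ρ g ((algebraMap (ZMod p) k c) • w) = (algebraMap (ZMod p) k c) • ρ g w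
    rw [map_smul]
  have hstable : ∀ (g : P) (w : V), w ∈ W → ρ g w ∈ W := by
    intro g w hw
    induction hw using Submodule.span_induction with
    | mem x hx =>
      obtain ⟨h, rfl⟩ := hx
      refine Submodule.subset_span ⟨g * h, ?_⟩
      simp
    | zero => simp
    | add x y _ _ hx hy => rw [map_add]; exact add_mem hx hy
    | smul a x _ hx => rw [hsmul]; exact Submodule.smul_mem _ _ hx
  let _ : MulAction P W :=
    { smul := fun g w => ⟨ρ g w, hstable g w w.2⟩
      one_smul := fun w => Subtype.ext (by change ρ 1 (w : V) = w; simp)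
      mul_smul := fun g h w => Subtype.ext (by change ρ (g * h) (w : V) = ρ g (ρ h w); simp) }
  have hvW : v ∈ W := Submodule.subset_span ⟨1, by simp⟩
  have hne : Nontrivial W := ⟨⟨⟨v, hvW⟩, 0, fun h => hv (congrArg Subtype.val h)⟩⟩
  have hcard : p ∣ Nat.card W := by
    have h1 : 0 < Module.finrank (ZMod p) W := Module.finrank_pos
    have h2 : Nat.card W = p ^ Module.finrank (ZMod p) W := by
      rw [Module.natCard_eq_pow_finrank (K := ZMod p), Nat.card_zmod]
    rw [h2]
    exact dvd_pow_self p h1.ne'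
  have h0 : (0 : W) ∈ MulAction.fixedPoints P W := by
    intro g
    apply Subtype.ext
    change ρ g (0 : V) = 0
    simp
  obtain ⟨w, hw, hw0⟩ := hP.exists_fixed_point_of_prime_dvd_card_of_fixed_point W hcard h0
  refine ⟨w, fun h => hw0 (Subtype.ext h.symm), fun g => ?_⟩
  exact congrArg Subtype.val (hw g)

section

variable {p : ℕ} [hp : Fact p.Prime] {k G V : Type*} [Field k] [CharP k p] [Group G] [Finite G]
  [AddCommGroup V] [Module k V]

/-- A normal `p`-subgroup acts trivially on irreducible representations in characteristic `p`. -/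
theorem apply_eq_one_of_isIrreducible (R : Subgroup G) [R.Normal] (hR : IsPGroup p R)
    (ρ : Representation k G V) (hρ : ρ.IsIrreducible) (r : G) (hr : r ∈ R) : ρ r = 1 := by
  have hnt : Nontrivial V := by
    by_contra h
    rw [not_nontrivial_iff_subsingleton] at h
    have : (⊥ : Subrepresentation ρ) = ⊤ := by
      apply Subrepresentation.toSubmodule_injective
      exact Subsingleton.elim _ _
    exact bot_ne_top this
  let W : Subrepresentation ρ :=
    { toSubmodule := invariants (ρ.comp R.subtype)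
      apply_mem_toSubmodule := by
        intro g v hv
        rw [mem_invariants] at hv ⊢
        intro x
        have h1 := hv ⟨g⁻¹ * x * g, by
          have := Subgroup.Normal.conj_mem ‹R.Normal› x x.2 g⁻¹
          simpa using this⟩
        change ρ (g⁻¹ * x * g) v = v at h1
        change ρ x (ρ g v) = ρ g v
        conv_rhs => rw [← h1]
        rw [← Module.End.mul_apply, ← Module.End.mul_apply, ← map_mul, ← map_mul]
        congr 2
        group }
  obtain ⟨v, hv0, hv⟩ := exists_fixed_vector hR (ρ.comp R.subtype)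
  have hvW : v ∈ W.toSubmodule := (mem_invariants _ _).mpr hv
  rcases eq_bot_or_eq_top W with h | h
  · rw [h] at hvW
    exact absurd ((Submodule.mem_bot k).mp hvW) hv0
  · ext w
    have hw : w ∈ W.toSubmodule := by rw [h]; trivial
    exact (mem_invariants _ _).mp hw ⟨r, hr⟩

end

/-- inflation of irreducible representations -/
noncomputable def inflate (k : Type*) {G : Type*} [Field k] [Group G] (R : Subgroup G) [R.Normal] :
    IrrRep k (G ⧸ R) → IrrRep k G := fun x =>
  ⟨⟨x.1.1, x.1.2.comp (QuotientGroup.mk' R)⟩,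
    (isIrreducible_comp_iff x.1.2 (QuotientGroup.mk' R) (QuotientGroup.mk'_surjective R)).mpr x.2⟩

theorem inflate_iso_iff (k : Type*) {G : Type*} [Field k] [Group G] (R : Subgroup G) [R.Normal]
    (a b : IrrRep k (G ⧸ R)) : (inflate k R a).Iso (inflate k R b) ↔ a.Iso b := by
  constructor
  · rintro ⟨e⟩
    refine ⟨Representation.Equiv.mk e.toLinearEquiv fun g => ?_⟩
    obtain ⟨g, rfl⟩ := QuotientGroup.mk'_surjective R g
    exact e.isIntertwining' g
  · rintro ⟨e⟩
    exact ⟨Representation.Equiv.mk e.toLinearEquiv fun g => e.isIntertwining' (QuotientGroup.mk' R g)⟩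

theorem isoEqv (k G : Type*) [Field k] [Group G] :
    Equivalence (IrrRep.Iso (k := k) (G := G)) :=
  ⟨fun _ => ⟨Representation.Equiv.refl _⟩, fun ⟨e⟩ => ⟨e.symm⟩, fun ⟨e⟩ ⟨f⟩ => ⟨e.trans f⟩⟩

theorem numSimple_quotient (p : ℕ) [Fact p.Prime] (k : Type*) [Field k] [CharP k p]
    (G : Type*) [Group G] [Finite G] (R : Subgroup G) [R.Normal] (hR : IsPGroup p R) :
    numSimple k (G ⧸ R) = numSimple k G := by
  let F : Quot (IrrRep.Iso (k := k) (G := G ⧸ R)) → Quot (IrrRep.Iso (k := k) (G := G)) :=
    Quot.map (inflate k R) fun a b h => (inflate_iso_iff k R a b).mpr h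
  refine Nat.card_congr (Equiv.ofBijective F ⟨?_, ?_⟩)
  · rintro ⟨a⟩ ⟨b⟩ h
    have h1 : (Quot.mk _ (inflate k R a) : Quot (IrrRep.Iso (k := k) (G := G))) =
      Quot.mk _ (inflate k R b) := h
    have h2 := (isoEqv k G).eqvGen_iff.mp (Quot.eqvGen_exact h1)
    exact Quot.sound ((inflate_iso_iff k R a b).mp h2)
  · rintro ⟨⟨⟨n, ρ⟩, hρ⟩⟩
    have h1 : ∀ r ∈ R, ρ r = 1 := fun r hr => apply_eq_one_of_isIrreducible R hR ρ hρ r hr
    let ρ' : Representation k (G ⧸ R) (Fin n → k) := QuotientGroup.lift R ρ h1
    have h2 : ρ'.comp (QuotientGroup.mk' R) = ρ := by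
      ext g : 1
      rfl
    have h3 : ρ'.IsIrreducible := by
      rw [← isIrreducible_comp_iff ρ' (QuotientGroup.mk' R) (QuotientGroup.mk'_surjective R), h2]
      exact hρ
    refine ⟨Quot.mk _ ⟨⟨n, ρ'⟩, h3⟩, ?_⟩
    change Quot.mk _ (inflate k R ⟨⟨n, ρ'⟩, h3⟩) = _
    congr 1

end P179H524
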