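import Vale.Agent.P179.H525.Chars

/-! # Counting weights -/

namespace P179H524

open Subgroup

section Transport

variable {G G' : Type*} [Group G] [Group G']

lemma mem_normalizer_map (θ : G ≃* G') (Q : Subgroup G) (x : G') :
    x ∈ normalizer ((Q.map θ.toMonoidHom : Subgroup G') : Set G') ↔
      θ.symm x ∈ normalizer (Q : Set G) := by
  rw [mem_normalizer_iff, mem_normalizer_iff]
  constructor
  · intro h n
    have := h (θ n)
    simp only [mem_map_equiv, MulEquiv.symm_apply_apply, map_mul, map_inv] at this ⊢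
    exact this
  · intro h n
    have := h (θ.symm n)
    simp only [mem_map_equiv, map_mul, map_inv] at this ⊢
    exact this

/-- the normalizers of `Q` and of its image -/
def normalizerEquiv (θ : G ≃* G') (Q : Subgroup G) :
    normalizer (Q : Set G) ≃* normalizer ((Q.map θ.toMonoidHom : Subgroup G') : Set G') where
  toFun x := ⟨θ x, (mem_normalizer_map θ Q _).mpr (by simp)⟩
  invFun x := ⟨θ.symm x, (mem_normalizer_map θ Q _).mp x.2⟩
  left_inv x := by simp
  right_inv x := Subtype.ext (θ.apply_symm_apply x)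
  map_mul' x y := Subtype.ext (map_mul θ (x : G) y)

/-- the isomorphism between `N(Q)/Q` and `N(θQ)/θQ` -/
def nqEquiv (θ : G ≃* G') (Q : Subgroup G) : NQ Q ≃* NQ (Q.map θ.toMonoidHom) :=
  QuotientGroup.congr _ _ (normalizerEquiv θ Q) (by
    ext x
    rw [mem_subgroupOf, mem_map_equiv, mem_map]
    constructor
    · rintro ⟨y, hy, rfl⟩
      rw [mem_subgroupOf] at hy
      change θ.symm (θ y) ∈ Q
      rwa [θ.symm_apply_apply]
    · intro hx
      exact ⟨(normalizerEquiv θ Q).symm x, hx, (normalizerEquiv θ Q).apply_symm_apply x⟩)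

lemma nqEquiv_mk (θ : G ≃* G') (Q : Subgroup G) (x : normalizer (Q : Set G)) :
    nqEquiv θ Q (QuotientGroup.mk x) = QuotientGroup.mk (normalizerEquiv θ Q x) := rfl

lemma nqEquiv_symm_mk (θ : G ≃* G') (Q : Subgroup G)
    (x : normalizer ((Q.map θ.toMonoidHom : Subgroup G') : Set G')) :
    (nqEquiv θ Q).symm (QuotientGroup.mk x) = QuotientGroup.mk ((normalizerEquiv θ Q).symm x) := rfl

end Transport

/-- A pair of a subgroup and a function. -/
@[ext] structure Pr (G : Type*) [Group G] where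
  /-- the subgroup -/
  Q : Subgroup G
  /-- the function -/
  Φ : G → ℂ

variable {p : ℕ} {G : Type*} [Group G]

instance : MulAction G (Pr G) where
  smul g x := ⟨x.Q.map (MulAut.conj g).toMonoidHom, fun y => x.Φ (g⁻¹ * y * g)⟩
  one_smul x := by
    refine Pr.ext ?_ ?_
    · change x.Q.map (MulAut.conj 1).toMonoidHom = x.Q
      ext y
      rw [mem_map_equiv, map_one]
      exact Iff.rfl
    · funext y
      change x.Φ (1⁻¹ * y * 1) = x.Φ y
      simp
  mul_smul g h x := by
    refine Pr.ext ?_ ?_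
    · change x.Q.map (MulAut.conj (g * h)).toMonoidHom =
        (x.Q.map (MulAut.conj h).toMonoidHom).map (MulAut.conj g).toMonoidHom
      ext y
      rw [mem_map_equiv, mem_map_equiv, mem_map_equiv, map_mul]
      exact Iff.rfl
    · funext y
      change x.Φ ((g * h)⁻¹ * y * (g * h)) = x.Φ (h⁻¹ * (g⁻¹ * y * g) * h)
      simp [mul_assoc]

lemma Pr.smul_Q (g : G) (x : Pr G) : (g • x).Q = x.Q.map (MulAut.conj g).toMonoidHom := rfl

lemma Pr.smul_Φ (g : G) (x : Pr G) (y : G) : (g • x).Φ y = x.Φ (g⁻¹ * y * g) := rfl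

open scoped Classical in
/-- a function on `N(Q)/Q` as a function on `G` -/
noncomputable def toFn (Q : Subgroup G) (φ : NQ Q → ℂ) : G → ℂ :=
  fun x => if h : x ∈ normalizer (Q : Set G) then φ (QuotientGroup.mk ⟨x, h⟩) else 0

lemma toFn_pos (Q : Subgroup G) (φ : NQ Q → ℂ) {x : G} (h : x ∈ normalizer (Q : Set G)) :
    toFn Q φ x = φ (QuotientGroup.mk ⟨x, h⟩) := by
  simp only [toFn, dif_pos h]

lemma toFn_neg (Q : Subgroup G) (φ : NQ Q → ℂ) {x : G} (h : x ∉ normalizer (Q : Set G)) :
    toFn Q φ x = 0 := by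
  simp only [toFn, dif_neg h]

lemma toFn_injective (Q : Subgroup G) : Function.Injective (toFn Q) := by
  intro φ ψ h
  funext x
  obtain ⟨⟨y, hy⟩, rfl⟩ := QuotientGroup.mk_surjective x
  have := congrFun h y
  simpa [toFn, hy] using this

/-- the pair of a weight -/
noncomputable def Weight.pr (w : Weight p G) : Pr G := ⟨w.Q, toFn w.Q w.φ⟩

lemma Weight.pr_injective : Function.Injective (Weight.pr : Weight p G → Pr G) := by
  rintro ⟨Q, h1, φ, h2⟩ ⟨Q', h1', φ', h2'⟩ h
  have hQ : Q = Q' := congrArg Pr.Q h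
  subst hQ
  have : φ = φ' := toFn_injective Q (congrArg Pr.Φ h)
  subst this
  rfl

/-- a conjugate of a weight -/
def Weight.conj (g : G) (w : Weight p G) : Weight p G where
  Q := w.Q.map (MulAut.conj g).toMonoidHom
  isPGroup := w.isPGroup.map _
  φ x := w.φ ((nqEquiv (MulAut.conj g) w.Q).symm x)
  defectZero := w.defectZero.comp (nqEquiv (MulAut.conj g) w.Q).symm

lemma Weight.pr_conj (g : G) (w : Weight p G) : (w.conj g).pr = g • w.pr := by
  refine Pr.ext rfl ?_
  funext y
  rw [Pr.smul_Φ]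
  change toFn (w.Q.map (MulAut.conj g).toMonoidHom)
    (fun x => w.φ ((nqEquiv (MulAut.conj g) w.Q).symm x)) y = toFn w.Q w.φ (g⁻¹ * y * g)
  by_cases h : y ∈ normalizer ((w.Q.map (MulAut.conj g).toMonoidHom : Subgroup G) : Set G)
  · have h' : g⁻¹ * y * g ∈ normalizer (w.Q : Set G) := by
      have := (mem_normalizer_map (MulAut.conj g) w.Q y).mp h
      simpa using this
    rw [toFn_pos _ _ h, toFn_pos _ _ h']
    rw [nqEquiv_symm_mk]
    congr 2
  · have h' : ¬ g⁻¹ * y * g ∈ normalizer (w.Q : Set G) := by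
      intro h1
      apply h
      rw [mem_normalizer_map]
      simpa using h1
    rw [toFn_neg _ _ h, toFn_neg _ _ h']

lemma Weight.conj_iff (a b : Weight p G) : a.Conj b ↔ ∃ g : G, g • a.pr = b.pr := by
  constructor
  · rintro ⟨g, hQ, hφ⟩
    refine ⟨g, Pr.ext hQ.symm ?_⟩
    funext y
    rw [Pr.smul_Φ]
    change toFn a.Q a.φ (g⁻¹ * y * g) = toFn b.Q b.φ y
    by_cases h : y ∈ normalizer (b.Q : Set G)
    · have h' : g⁻¹ * y * g ∈ normalizer (a.Q : Set G) := by
        rw [hQ, mem_normalizer_map] at h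
        simpa using h
      rw [toFn_pos _ _ h, toFn_pos _ _ h']
      exact (hφ ⟨_, h'⟩ ⟨y, h⟩ (by simp [mul_assoc])).symm
    · have h' : ¬ g⁻¹ * y * g ∈ normalizer (a.Q : Set G) := by
        intro h1
        apply h
        rw [hQ, mem_normalizer_map]
        simpa using h1
      rw [toFn_neg _ _ h, toFn_neg _ _ h']
  · rintro ⟨g, hg⟩
    have hQ : b.Q = a.Q.map (MulAut.conj g).toMonoidHom := (congrArg Pr.Q hg).symm
    refine ⟨g, hQ, fun n n' hn => ?_⟩
    have h := congrFun (congrArg Pr.Φ hg) n'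
    rw [Pr.smul_Φ] at h
    change toFn a.Q a.φ (g⁻¹ * n' * g) = toFn b.Q b.φ n' at h
    have h1 : g⁻¹ * (n' : G) * g = n := by rw [hn]; group
    rw [toFn_pos _ _ n'.2] at h
    rw [h1, toFn_pos _ _ n.2] at h
    exact h.symm

/-- the set of the pairs of the weights, with its `G`-action -/
def wSet (p : ℕ) (G : Type*) [Group G] : SubMulAction G (Pr G) where
  carrier := Set.range (Weight.pr : Weight p G → Pr G)
  smul_mem' := by
    rintro g _ ⟨w, rfl⟩
    exact ⟨w.conj g, w.pr_conj g⟩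

/-- weights are the elements of `wSet` -/
noncomputable def weightEquiv (p : ℕ) (G : Type*) [Group G] : Weight p G ≃ wSet p G :=
  Equiv.ofInjective _ Weight.pr_injective

lemma numWeights_eq_orbits (p : ℕ) (G : Type*) [Group G] :
    numWeights p G = Nat.card (MulAction.orbitRel.Quotient G (wSet p G)) := by
  refine Nat.card_congr (Quot.congr (weightEquiv p G) fun a b => ?_)
  rw [Weight.conj_iff]
  change _ ↔ (weightEquiv p G a) ∈ MulAction.orbit G (weightEquiv p G b)
  rw [MulAction.mem_orbit_iff]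
  constructor
  · rintro ⟨g, hg⟩
    refine ⟨g⁻¹, ?_⟩
    apply Subtype.ext
    change g⁻¹ • b.pr = a.pr
    rw [← hg, inv_smul_smul]
  · rintro ⟨g, hg⟩
    refine ⟨g⁻¹, ?_⟩
    have : g • b.pr = a.pr := congrArg Subtype.val hg
    rw [← this, inv_smul_smul]

lemma smul_pr_eq_iff (g : G) (w : Weight p G) :
    g • w.pr = w.pr ↔ g ∈ normalizer (w.Q : Set G) := by
  constructor
  · intro h
    have h1 : w.Q.map (MulAut.conj g).toMonoidHom = w.Q := congrArg Pr.Q h
    exact mem_normalizer_iff_map_conj_eq.mpr h1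
  · intro h
    refine Pr.ext (mem_normalizer_iff_map_conj_eq.mp h) ?_
    funext y
    rw [Pr.smul_Φ]
    change toFn w.Q w.φ (g⁻¹ * y * g) = toFn w.Q w.φ y
    by_cases hy : y ∈ normalizer (w.Q : Set G)
    · have h' : g⁻¹ * y * g ∈ normalizer (w.Q : Set G) := mul_mem (mul_mem (inv_mem h) hy) h
      rw [toFn_pos _ _ hy, toFn_pos _ _ h']
      have h2 := w.defectZero.1.conj (QuotientGroup.mk ⟨g⁻¹, inv_mem h⟩) (QuotientGroup.mk ⟨y, hy⟩)
      rw [← h2, ← QuotientGroup.mk_inv, ← QuotientGroup.mk_mul, ← QuotientGroup.mk_mul]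
      congr 2
      apply Subtype.ext
      simp
    · have h' : ¬ g⁻¹ * y * g ∈ normalizer (w.Q : Set G) := by
        intro h1
        apply hy
        have : y = g * (g⁻¹ * y * g) * g⁻¹ := by group
        rw [this]
        exact mul_mem (mul_mem h h1) (inv_mem h)
      rw [toFn_neg _ _ hy, toFn_neg _ _ h']

open scoped Classical in
/-- **Counting weights.** -/
theorem card_mul_numWeights (p : ℕ) [Fact p.Prime] (G : Type) [Group G] [Finite G] :
    Nat.card G * numWeights p G =
      ∑ᶠ Q : {Q : Subgroup G // IsPGroup p Q},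
        Nat.card (normalizer (Q.1 : Set G)) * numDZ p (NQ Q.1) := by
  have := Fintype.ofFinite G
  have e1 : Weight p G ≃ Σ Q : {Q : Subgroup G // IsPGroup p Q},
      {φ : NQ Q.1 → ℂ // IsDefectZeroChar p φ} :=
    { toFun := fun w => ⟨⟨w.Q, w.isPGroup⟩, ⟨w.φ, w.defectZero⟩⟩
      invFun := fun x => ⟨x.1.1, x.1.2, x.2.1, x.2.2⟩
      left_inv := fun _ => rfl
      right_inv := fun _ => rfl }
  have hfin : Finite (Weight p G) := Finite.of_equiv _ e1.symm
  have hfin2 : Finite (wSet p G) := Finite.of_equiv _ (weightEquiv p G)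
  have := Fintype.ofFinite (wSet p G)
  have := Fintype.ofFinite (Weight p G)
  -- pairs of a group element and a fixed point
  have h1 : Nat.card G * numWeights p G =
      Nat.card (Σ g : G, MulAction.fixedBy (wSet p G) g) := by
    rw [Nat.card_congr (MulAction.sigmaFixedByEquivOrbitsProdGroup G (wSet p G)), Nat.card_prod,
      ← numWeights_eq_orbits, mul_comm]
  have h2 : Nat.card (Σ g : G, MulAction.fixedBy (wSet p G) g) =
      Nat.card (Σ w : Weight p G, normalizer (w.Q : Set G)) := by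
    have e2 : {y : G × wSet p G // y.1 • y.2 = y.2} ≃ Σ g : G, MulAction.fixedBy (wSet p G) g :=
      Equiv.subtypeProdEquivSigmaSubtype (fun (g : G) (x : wSet p G) => g • x = x)
    rw [← Nat.card_congr e2]
    let F : (Σ w : Weight p G, normalizer (w.Q : Set G)) → {y : G × wSet p G // y.1 • y.2 = y.2} :=
      fun z => ⟨(z.2.1, weightEquiv p G z.1), Subtype.ext ((smul_pr_eq_iff _ _).mpr z.2.2)⟩
    refine (Nat.card_congr (Equiv.ofBijective F ⟨?_, ?_⟩)).symm
    · rintro ⟨w, n⟩ ⟨w', n'⟩ h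
      have h3 := Prod.ext_iff.mp (congrArg Subtype.val h)
      have h4 : w = w' := (weightEquiv p G).injective h3.2
      subst h4
      have h5 : n = n' := Subtype.ext h3.1
      rw [h5]
    · rintro ⟨⟨g, x⟩, hx⟩
      obtain ⟨w, rfl⟩ := (weightEquiv p G).surjective x
      exact ⟨⟨w, ⟨g, (smul_pr_eq_iff _ _).mp (congrArg Subtype.val hx)⟩⟩, rfl⟩
  have e3 : (Σ w : Weight p G, normalizer (w.Q : Set G)) ≃
      Σ Q : {Q : Subgroup G // IsPGroup p Q},
        {φ : NQ Q.1 → ℂ // IsDefectZeroChar p φ} × normalizer (Q.1 : Set G) :=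
    { toFun := fun z => ⟨⟨z.1.Q, z.1.isPGroup⟩, (⟨z.1.φ, z.1.defectZero⟩, z.2)⟩
      invFun := fun x => ⟨⟨x.1.1, x.1.2, x.2.1.1, x.2.1.2⟩, x.2.2⟩
      left_inv := fun _ => rfl
      right_inv := fun _ => rfl }
  have := Fintype.ofFinite {Q : Subgroup G // IsPGroup p Q}
  rw [h1, h2, Nat.card_congr e3, Nat.card_sigma, finsum_eq_sum_of_fintype]
  refine Finset.sum_congr rfl fun Q _ => ?_
  rw [Nat.card_prod, mul_comm]
  rfl

end P179H524
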