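import Vale.Agent.P179.H525.DZ
import Vale.Agent.P179.H525.Weights

/-! # Weights of a quotient by a normal `p`-subgroup -/

namespace P179H524

open Subgroup

section

variable {G G' : Type*} [Group G] [Group G'] (f : G →* G') (hf : Function.Surjective f)
  (Q' : Subgroup G')

include hf in
lemma mem_normalizer_comap (x : G) :
    x ∈ normalizer ((Q'.comap f : Subgroup G) : Set G) ↔ f x ∈ normalizer (Q' : Set G') := by
  rw [mem_normalizer_iff, mem_normalizer_iff]
  constructor
  · intro h n
    obtain ⟨n, rfl⟩ := hf n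
    have := h n
    simpa using this
  · intro h n
    have := h (f n)
    simpa using this

/-- the homomorphism `N(f⁻¹ Q') → N(Q')` -/
def normalizerHom : normalizer ((Q'.comap f : Subgroup G) : Set G) →* normalizer (Q' : Set G') where
  toFun x := ⟨f x, (mem_normalizer_comap f hf Q' x).mp x.2⟩
  map_one' := Subtype.ext (map_one f)
  map_mul' x y := Subtype.ext (map_mul f (x : G) (y : G))

lemma normalizerHom_surjective : Function.Surjective (normalizerHom f hf Q') := by
  rintro ⟨y, hy⟩
  obtain ⟨x, rfl⟩ := hf y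
  exact ⟨⟨x, (mem_normalizer_comap f hf Q' x).mpr hy⟩, rfl⟩

/-- `N(f⁻¹ Q')/f⁻¹ Q'` is isomorphic to `N(Q')/Q'` -/
noncomputable def nqComapEquiv : NQ (Q'.comap f) ≃* NQ Q' :=
  (QuotientGroup.quotientMulEquivOfEq (by
    ext x
    rw [MonoidHom.mem_ker, MonoidHom.comp_apply, mem_subgroupOf, mem_comap]
    change _ ↔ (QuotientGroup.mk (normalizerHom f hf Q' x) : NQ Q') = 1
    rw [QuotientGroup.eq_one_iff, mem_subgroupOf]
    rfl)).trans
  (QuotientGroup.quotientKerEquivOfSurjective
    ((QuotientGroup.mk' (Q'.subgroupOf (normalizer (Q' : Set G')))).comp (normalizerHom f hf Q'))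
    ((QuotientGroup.mk'_surjective _).comp (normalizerHom_surjective f hf Q')))

end

/-- If the normal `p`-subgroup `R` is not contained in the `p`-subgroup `Q` then `N(Q)/Q` has a
nontrivial normal `p`-subgroup. -/
lemma not_opTrivial_nq {p : ℕ} [Fact p.Prime] {G : Type*} [Group G] [Finite G]
    (R : Subgroup G) [R.Normal] (hR : IsPGroup p R) (Q : Subgroup G) (hQ : IsPGroup p Q)
    (h : ¬ R ≤ Q) : ¬ OpTrivial p (NQ Q) := by
  intro hO
  set N := normalizer (Q : Set G) with hN
  set P : Subgroup G := Q ⊔ R with hP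
  have hPp : IsPGroup p P := hQ.to_sup_of_normal_right hR
  have hconj : ∀ g ∈ N, P.map (MulAut.conj g).toMonoidHom = P := by
    intro g hg
    rw [hP, Subgroup.map_sup]
    congr 1
    · exact mem_normalizer_iff_map_conj_eq.mp hg
    · have : g ∈ normalizer (R : Set G) := by
        rw [normalizer_eq_top]; trivial
      exact mem_normalizer_iff_map_conj_eq.mp this
  have hPn : (P.subgroupOf N).Normal := by
    refine ⟨fun x hx g => ?_⟩
    rw [mem_subgroupOf] at hx ⊢
    have := hconj g g.2
    rw [← this]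
    exact ⟨x, hx, rfl⟩
  have h1 := hO ((P.subgroupOf N).map (QuotientGroup.mk' (Q.subgroupOf N)))
    (Subgroup.Normal.map hPn _ (QuotientGroup.mk'_surjective _))
    ((hPp.comap_subtype).map _)
  have : Group.IsNilpotent P := hPp.isNilpotent
  have hne : Q.subgroupOf P < ⊤ := by
    rw [lt_top_iff_ne_top, Ne, subgroupOf_eq_top]
    intro h2
    exact h (le_trans le_sup_right h2)
  have h2 := Group.normalizerCondition_of_isNilpotent _ hne
  obtain ⟨x, hx1, hx2⟩ := SetLike.exists_of_lt h2
  have hxN : (x : G) ∈ N := by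
    rw [hN, mem_normalizer_iff]
    rw [mem_normalizer_iff] at hx1
    intro q
    constructor
    · intro hq
      have := (hx1 ⟨q, (le_sup_left : Q ≤ Q ⊔ R) hq⟩).mp (by rw [mem_subgroupOf]; exact hq)
      rw [mem_subgroupOf] at this
      exact this
    · intro hq
      have hqP : q ∈ P := by
        have h3 : (x : G) * q * (x : G)⁻¹ ∈ P := (le_sup_left : Q ≤ Q ⊔ R) hq
        have h4 := mul_mem (mul_mem (inv_mem x.2) h3) x.2
        have h5 : (x : G)⁻¹ * ((x : G) * q * (x : G)⁻¹) * x = q := by group
        rwa [h5] at h4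
      have := (hx1 ⟨q, hqP⟩).mpr (by rw [mem_subgroupOf]; exact hq)
      rw [mem_subgroupOf] at this
      exact this
  have h3 : (QuotientGroup.mk' (Q.subgroupOf N)) ⟨x, hxN⟩ ∈
      (P.subgroupOf N).map (QuotientGroup.mk' (Q.subgroupOf N)) :=
    ⟨⟨x, hxN⟩, by rw [SetLike.mem_coe, mem_subgroupOf]; exact x.2, rfl⟩
  rw [h1, mem_bot, QuotientGroup.mk'_apply, QuotientGroup.eq_one_iff, mem_subgroupOf] at h3
  exact hx2 (by rw [mem_subgroupOf]; exact h3)

theorem numWeights_quotient (p : ℕ) [Fact p.Prime] (G : Type) [Group G] [Finite G]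
    (R : Subgroup G) [R.Normal] (hR : IsPGroup p R) : numWeights p (G ⧸ R) = numWeights p G := by
  classical
  have hA := card_mul_numWeights p G
  have hB := card_mul_numWeights p (G ⧸ R)
  have := Fintype.ofFinite {Q : Subgroup G // IsPGroup p Q}
  have := Fintype.ofFinite {Q : Subgroup (G ⧸ R) // IsPGroup p Q}
  rw [finsum_eq_sum_of_fintype] at hA hB
  set π : G →* G ⧸ R := QuotientGroup.mk' R with hπ
  have hπs : Function.Surjective π := QuotientGroup.mk'_surjective R
  have hker : π.ker = R := QuotientGroup.ker_mk' R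
  let e : {Q : Subgroup (G ⧸ R) // IsPGroup p Q} → {Q : Subgroup G // IsPGroup p Q} :=
    fun Q => ⟨Q.1.comap π, Q.2.comap_of_ker_isPGroup π (by rw [hker]; exact hR)⟩
  have he : Function.Injective e := by
    intro Q Q' h
    exact Subtype.ext (comap_injective hπs (congrArg Subtype.val h))
  have hGR : Nat.card G = Nat.card (G ⧸ R) * Nat.card R := card_eq_card_quotient_mul_card_subgroup R
  have h1 : ∑ Q : {Q : Subgroup (G ⧸ R) // IsPGroup p Q},
      Nat.card R * (Nat.card (normalizer (Q.1 : Set (G ⧸ R))) * numDZ p (NQ Q.1)) =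
      ∑ Q : {Q : Subgroup G // IsPGroup p Q},
        Nat.card (normalizer (Q.1 : Set G)) * numDZ p (NQ Q.1) := by
    refine Fintype.sum_of_injective e he _ _ ?_ ?_
    · intro Q hQ
      have h2 : ¬ R ≤ Q.1 := by
        intro h3
        refine hQ ⟨⟨Q.1.map π, Q.2.map π⟩, Subtype.ext ?_⟩
        change (Q.1.map π).comap π = Q.1
        rw [comap_map_eq_self]
        rw [hker]
        exact h3
      rw [numDZ_eq_zero p _ (not_opTrivial_nq R hR Q.1 Q.2 h2), mul_zero]
    · intro Q
      change _ = Nat.card (normalizer ((Q.1.comap π : Subgroup G) : Set G)) * numDZ p (NQ (Q.1.comap π))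
      rw [numDZ_congr p (nqComapEquiv π hπs Q.1), ← mul_assoc]
      congr 1
      have h2 : normalizer ((Q.1.comap π : Subgroup G) : Set G) =
          (normalizer (Q.1 : Set (G ⧸ R))).comap π := by
        ext x
        rw [mem_comap]
        exact mem_normalizer_comap π hπs Q.1 x
      rw [h2]
      set M := normalizer (Q.1 : Set (G ⧸ R)) with hM
      have h3 : (M.comap π).index = M.index := index_comap_of_surjective _ hπs
      have h4 := card_mul_index (M.comap π)
      have h5 := card_mul_index M
      have h6 : 0 < M.index := Nat.pos_of_ne_zero M.index_ne_zero_of_finite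
      rw [h3, hGR, ← h5] at h4
      have h7 : Nat.card (M.comap π) * M.index = Nat.card R * Nat.card M * M.index := by
        rw [h4]; ring
      exact (Nat.eq_of_mul_eq_mul_right h6 h7).symm
  rw [← Finset.mul_sum, ← hB, ← hA, hGR] at h1
  have h2 : 0 < Nat.card (G ⧸ R) * Nat.card R := Nat.mul_pos Nat.card_pos Nat.card_pos
  apply Nat.eq_of_mul_eq_mul_left h2
  rw [← h1]
  ring

end P179H524
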