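import Vale.Agent.P179.H524.Basic

/-! # Irreducible characters: transport, orthogonality, finiteness -/

namespace P179H524

open Representation

section Comp

variable {k G H V : Type*} [Field k] [Group G] [Group H] [AddCommGroup V] [Module k V]

/-- subrepresentations of the inflation along a surjective homomorphism -/
def subrepOrderIso (ρ : Representation k G V) (f : H →* G) (hf : Function.Surjective f) :
    Subrepresentation ρ ≃o Subrepresentation (ρ.comp f) where
  toFun W := ⟨W.toSubmodule, fun h v hv => W.apply_mem_toSubmodule (f h) hv⟩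
  invFun W := ⟨W.toSubmodule, fun g v hv => by
    obtain ⟨h, rfl⟩ := hf g
    exact W.apply_mem_toSubmodule h hv⟩
  left_inv _ := rfl
  right_inv _ := rfl
  map_rel_iff' := Iff.rfl

theorem isIrreducible_comp_iff (ρ : Representation k G V) (f : H →* G)
    (hf : Function.Surjective f) :
    IsIrreducible (ρ.comp f : Representation k H V) ↔ IsIrreducible ρ :=
  (OrderIso.isSimpleOrder_iff (subrepOrderIso ρ f hf)).symm

end Comp

theorem IsIrrChar.comp {K K' : Type*} [Group K] [Group K'] {χ : K → ℂ} (h : IsIrrChar χ)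
    (e : K' →* K) (he : Function.Surjective e) : IsIrrChar (fun x => χ (e x)) := by
  obtain ⟨n, ρ, hρ, rfl⟩ := h
  exact ⟨n, ρ.comp e, (isIrreducible_comp_iff ρ e he).mpr hρ, rfl⟩

theorem IsIrrChar.conj {K : Type*} [Group K] {χ : K → ℂ} (h : IsIrrChar χ) (g x : K) :
    χ (g * x * g⁻¹) = χ x := by
  obtain ⟨n, ρ, hρ, rfl⟩ := h
  exact char_conj ρ x g

theorem IsDefectZeroChar.comp {p : ℕ} {K K' : Type*} [Group K] [Group K'] {χ : K → ℂ}
    (h : IsDefectZeroChar p χ) (e : K' ≃* K) : IsDefectZeroChar p (fun x => χ (e x)) := by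
  obtain ⟨h1, d, h2, h3⟩ := h
  refine ⟨h1.comp e.toMonoidHom e.surjective, d, ?_, ?_⟩
  · simpa using h2
  · rw [h3, Nat.card_congr e.toEquiv]

theorem numDZ_congr (p : ℕ) {K K' : Type*} [Group K] [Group K'] (e : K' ≃* K) :
    numDZ p K' = numDZ p K := by
  refine Nat.card_congr ⟨fun χ => ⟨fun x => χ.1 (e.symm x), χ.2.comp e.symm⟩,
    fun χ => ⟨fun x => χ.1 (e x), χ.2.comp e⟩, fun χ => ?_, fun χ => ?_⟩
  · ext x; simp
  · ext x; simp

open scoped Classical in
theorem irrChar_inner {K : Type*} [Group K] [Fintype K] {χ ψ : K → ℂ} (hχ : IsIrrChar χ)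
    (hψ : IsIrrChar ψ) : ∑ g : K, χ g * ψ g⁻¹ = if χ = ψ then (Fintype.card K : ℂ) else 0 := by
  have hK : (Fintype.card K : ℂ) ≠ 0 := by exact_mod_cast Fintype.card_ne_zero
  have hK' : (Nat.card K : ℂ) ≠ 0 := by rwa [Nat.card_eq_fintype_card]
  let _ : Invertible (Nat.card K : ℂ) := invertibleOfNonzero hK'
  obtain ⟨n, ρ, hρ, rfl⟩ := hχ
  obtain ⟨m, σ, hσ, rfl⟩ := hψ
  by_cases h : ρ.character = σ.character
  · rw [if_pos h, ← h]
    have h1 := char_orthonormal ρ ρ
    rw [if_pos ⟨Representation.Equiv.refl ρ⟩] at h1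
    rw [inv_mul_eq_iff_eq_mul₀ hK', mul_one, Nat.card_eq_fintype_card] at h1
    exact h1
  · rw [if_neg h]
    have h1 := char_orthonormal ρ σ
    rw [if_neg (fun ⟨e⟩ => h (char_iso e).symm)] at h1
    rw [inv_mul_eq_iff_eq_mul₀ hK', mul_zero] at h1
    exact h1

theorem finite_irrChar (K : Type*) [Group K] [Finite K] : {χ : K → ℂ | IsIrrChar χ}.Finite := by
  classical
  have := Fintype.ofFinite K
  have hK : (Fintype.card K : ℂ) ≠ 0 := by exact_mod_cast Fintype.card_ne_zero
  have h : LinearIndependent ℂ (fun x : {χ : K → ℂ | IsIrrChar χ} => (x : K → ℂ)) := by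
    rw [linearIndependent_iff']
    intro s c hc i hi
    have h1 : ∑ g : K, (∑ j ∈ s, c j • (j : K → ℂ)) g * (i : K → ℂ) g⁻¹ = 0 := by
      rw [hc]; simp
    simp only [Finset.sum_apply, Pi.smul_apply, smul_eq_mul, Finset.sum_mul] at h1
    rw [Finset.sum_comm] at h1
    simp only [mul_assoc, ← Finset.mul_sum] at h1
    rw [Finset.sum_eq_single i] at h1
    · rw [irrChar_inner i.2 i.2, if_pos rfl] at h1
      exact (mul_eq_zero.mp h1).resolve_right hK
    · intro j _ hj
      rw [irrChar_inner j.2 i.2, if_neg (fun h => hj (Subtype.ext h)), mul_zero]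
    · intro h2; exact absurd hi h2
  exact h.setFinite

instance finite_defectZero (p : ℕ) (K : Type*) [Group K] [Finite K] :
    Finite {χ : K → ℂ // IsDefectZeroChar p χ} :=
  Set.Finite.subset (finite_irrChar K) fun _ h => h.1

end P179H524
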