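import Mathlib

/-! # Frobenius-Mednykh formula for a finite group, from a Wedderburn isomorphism -/

set_option linter.unusedSectionVars false
set_option linter.unusedVariables false

namespace Vale.Agent.P179.H525

open Matrix

noncomputable section

variable {K : Type*} [Group K] [Fintype K]
variable {ι : Type*} [Fintype ι] {d : ι → ℕ}

/-- The algebra `∏ i, M_{d i}(ℂ)`. -/
abbrev MatAlg {ι : Type*} (d : ι → ℕ) : Type _ := ∀ i, Matrix (Fin (d i)) (Fin (d i)) ℂ

/-- the trace of left multiplication on a product of matrix algebras -/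
lemma trace_mulLeft_matAlg (M : MatAlg d) :
    LinearMap.trace ℂ (MatAlg d) (LinearMap.mulLeft ℂ M) = ∑ i, (d i : ℂ) * (M i).trace := by
  classical
  let b : Module.Basis (Σ i, Fin (d i) × Fin (d i)) ℂ (MatAlg d) :=
    Pi.basis fun i => Matrix.stdBasis ℂ (Fin (d i)) (Fin (d i))
  rw [LinearMap.trace_eq_matrix_trace ℂ b]
  rw [Matrix.trace, Fintype.sum_sigma]
  refine Finset.sum_congr rfl fun i _ => ?_
  rw [Fintype.sum_prod_type, Matrix.trace]
  have key : ∀ j k, (LinearMap.toMatrix b b (LinearMap.mulLeft ℂ M)).diag ⟨i, (j, k)⟩ = M i j j := by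
    intro j k
    rw [Matrix.diag_apply, LinearMap.toMatrix_apply, LinearMap.mulLeft_apply]
    have h1 : b ⟨i, (j, k)⟩ = Pi.single i (Matrix.single j k (1:ℂ)) := by
      simp [b, Pi.basis_apply, Matrix.stdBasis_eq_single]
    rw [h1]
    have h2 : M * Pi.single i (Matrix.single j k (1:ℂ)) = Pi.single i (M i * Matrix.single j k (1:ℂ)) := by
      ext i' a b'
      by_cases h : i' = i
      · subst h; simp
      · simp [Pi.single_eq_of_ne h]
    rw [h2]
    simp only [b, Pi.basis_repr, Pi.single_eq_same]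
    have h3 : ∀ (N : Matrix (Fin (d i)) (Fin (d i)) ℂ), (Matrix.stdBasis ℂ (Fin (d i)) (Fin (d i))).repr N (j, k) = N j k := by
      intro N
      simp [Matrix.stdBasis, Matrix.ofLinearEquiv]
    rw [h3, Matrix.mul_apply]
    simp [Matrix.single_apply]
  simp_rw [key]
  simp [Finset.mul_sum, Matrix.diag]

/-- the trace of left multiplication on the group algebra -/
lemma trace_mulLeft_monoidAlgebra (a : MonoidAlgebra ℂ K) :
    LinearMap.trace ℂ (MonoidAlgebra ℂ K) (LinearMap.mulLeft ℂ a) = (Fintype.card K : ℂ) * a.coeff 1 := by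
  classical
  rw [LinearMap.trace_eq_matrix_trace ℂ (MonoidAlgebra.basis K ℂ), Matrix.trace]
  have key : ∀ k, (LinearMap.toMatrix (MonoidAlgebra.basis K ℂ) (MonoidAlgebra.basis K ℂ)
      (LinearMap.mulLeft ℂ a)).diag k = a.coeff 1 := by
    intro k
    rw [Matrix.diag_apply, LinearMap.toMatrix_apply, LinearMap.mulLeft_apply,
      MonoidAlgebra.basis_apply]
    change (a * MonoidAlgebra.single k 1).coeff k = _
    rw [MonoidAlgebra.coeff_mul_single_apply]
    simp
  simp_rw [key]
  simp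

variable (φ : MonoidAlgebra ℂ K ≃ₐ[ℂ] MatAlg d)

/-- the coefficient of the identity in terms of the Wedderburn components -/
lemma coeff_one (a : MonoidAlgebra ℂ K) :
    (Fintype.card K : ℂ) * a.coeff 1 = ∑ i, (d i : ℂ) * (φ a i).trace := by
  rw [← trace_mulLeft_monoidAlgebra, ← trace_mulLeft_matAlg]
  have : LinearMap.mulLeft ℂ (φ a) = φ.toLinearEquiv.conj (LinearMap.mulLeft ℂ a) := by
    refine LinearMap.ext fun x => ?_
    simp [LinearEquiv.conj_apply]
  rw [this, LinearMap.trace_conj']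

/-- the image of a group element -/
def rho (k : K) : MatAlg d := φ (MonoidAlgebra.single k 1)

lemma rho_mul (x y : K) : rho φ (x * y) = rho φ x * rho φ y := by
  simp [rho, ← map_mul]

lemma rho_one : rho φ 1 = 1 := by
  rw [rho, ← MonoidAlgebra.one_def, map_one]

lemma coeff_eq (a : MonoidAlgebra ℂ K) (y : K) :
    (Fintype.card K : ℂ) * a.coeff y⁻¹ = ∑ i, (d i : ℂ) * (φ a i * rho φ y i).trace := by
  have h := coeff_one φ (a * MonoidAlgebra.single y 1)
  rw [MonoidAlgebra.coeff_mul_single_apply] at h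
  simpa [rho] using h

/-- A matrix commuting with all group elements in the `i`-th component is scalar. -/
lemma scalar_of_commute [∀ i, NeZero (d i)] (i : ι) (M : Matrix (Fin (d i)) (Fin (d i)) ℂ)
    (h : ∀ k, rho φ k i * M = M * rho φ k i) : M = (M.trace / d i) • 1 := by
  classical
  have h1 : ∀ a : MonoidAlgebra ℂ K, φ a i * M = M * φ a i := by
    intro a
    induction a using MonoidAlgebra.induction_linear with
    | zero => simp
    | add x y hx hy => simp [add_mul, mul_add, hx, hy]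
    | single m r =>
      have : MonoidAlgebra.single m r = r • MonoidAlgebra.single m (1:ℂ) := by simp
      rw [this, map_smul, Pi.smul_apply, smul_mul_assoc, mul_smul_comm]
      exact congrArg _ (h m)
  have h2 : ∀ N : Matrix (Fin (d i)) (Fin (d i)) ℂ, Commute N M := by
    intro N
    have := h1 (φ.symm (Pi.single i N))
    rw [AlgEquiv.apply_symm_apply, Pi.single_eq_same] at this
    exact this
  obtain ⟨c, hc⟩ := Matrix.mem_range_scalar_of_commute_single (M := M) (fun a b _ => h2 _)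
  have hd : (d i : ℂ) ≠ 0 := by exact_mod_cast (NeZero.ne (d i))
  rw [← hc]
  simp only [scalar_apply, trace_diagonal, Finset.sum_const, Finset.card_univ, Fintype.card_fin,
    nsmul_eq_mul, smul_one_eq_diagonal]
  rw [mul_div_cancel_left₀ _ hd]

/-- the sum over the conjugates -/
lemma sum_conj [∀ i, NeZero (d i)] (i : ι) (y : K) :
    ∑ x : K, rho φ (x * y * x⁻¹) i = ((Fintype.card K : ℂ) * (rho φ y i).trace / d i) • 1 := by
  have h := scalar_of_commute φ i (∑ x : K, rho φ (x * y * x⁻¹) i) (fun k => by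
    rw [Finset.mul_sum, Finset.sum_mul, ← Equiv.sum_comp (Equiv.mulLeft k)
      (fun x => rho φ (x * y * x⁻¹) i * rho φ k i)]
    refine Finset.sum_congr rfl fun x _ => ?_
    rw [← Pi.mul_apply, ← Pi.mul_apply, ← rho_mul, ← rho_mul]
    simp [mul_assoc])
  rw [h]
  congr 2
  rw [Matrix.trace_sum]
  have : ∀ x : K, (rho φ (x * y * x⁻¹) i).trace = (rho φ y i).trace := by
    intro x
    rw [rho_mul, rho_mul, Pi.mul_apply, Pi.mul_apply, Matrix.trace_mul_comm, ← Matrix.mul_assoc,
      ← Pi.mul_apply, ← rho_mul]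
    simp [rho_one]
  simp [this]

lemma sum_trace_rho (hd : ∀ i, NeZero (d i)) (i : ι) :
    ∑ y : K, (rho φ y i).trace • rho φ y⁻¹ i = ((Fintype.card K : ℂ) / d i) • 1 := by
  classical
  have hd' : (d i : ℂ) ≠ 0 := by exact_mod_cast (NeZero.ne (d i))
  have hK : (Fintype.card K : ℂ) ≠ 0 := by exact_mod_cast Fintype.card_ne_zero
  set e : MonoidAlgebra ℂ K := φ.symm (Pi.single i 1) with he
  have h1 : ∀ y : K, (Fintype.card K : ℂ) * e.coeff y⁻¹ = d i * (rho φ y i).trace := by
    intro y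
    rw [coeff_eq φ e y, Finset.sum_eq_single i]
    · simp [he]
    · intro j _ hj
      simp [he, Pi.single_eq_of_ne hj]
    · simp
  have h2 : e = ∑ y : K, e.coeff y⁻¹ • MonoidAlgebra.single y⁻¹ (1:ℂ) := by
    ext k
    rw [MonoidAlgebra.coeff_sum, Finsupp.finsetSum_apply, Finset.sum_eq_single k⁻¹]
    · simp
    · intro y _ hy
      have : y⁻¹ ≠ k := fun h => hy (by rw [← h, inv_inv])
      simp [this]
    · simp
  have h3 : (1 : Matrix (Fin (d i)) (Fin (d i)) ℂ) = ∑ y : K, e.coeff y⁻¹ • rho φ y⁻¹ i := by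
    have := congrArg (fun a => φ a i) h2
    simp only [map_sum, map_smul, Finset.sum_apply, Pi.smul_apply] at this
    rw [he, AlgEquiv.apply_symm_apply, Pi.single_eq_same, ← he] at this
    exact this
  have h4 : ((Fintype.card K : ℂ) / d i) • (1 : Matrix (Fin (d i)) (Fin (d i)) ℂ)
      = ∑ y : K, ((Fintype.card K : ℂ) / d i) • (e.coeff y⁻¹ • rho φ y⁻¹ i) := by
    rw [← Finset.smul_sum, ← h3]
  rw [h4]
  refine Finset.sum_congr rfl fun y _ => ?_
  rw [smul_smul]
  congr 1
  rw [div_mul_eq_mul_div, h1 y, mul_div_cancel_left₀ _ hd']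

/-- the sum of all commutators -/
def comSum (R K : Type*) [Semiring R] [Group K] [Fintype K] : MonoidAlgebra R K :=
  ∑ p : K × K, MonoidAlgebra.single (p.1 * p.2 * p.1⁻¹ * p.2⁻¹) 1

lemma map_comSum (hd : ∀ i, NeZero (d i)) (i : ι) :
    φ (comSum ℂ K) i = (((Fintype.card K : ℂ) / d i) ^ 2) • 1 := by
  have h1 : φ (comSum ℂ K) i = ∑ y : K, ∑ x : K, rho φ (x * y * x⁻¹) i * rho φ y⁻¹ i := by
    rw [comSum, map_sum, Finset.sum_apply, Fintype.sum_prod_type, Finset.sum_comm]
    refine Finset.sum_congr rfl fun y _ => Finset.sum_congr rfl fun x _ => ?_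
    exact congrFun (rho_mul φ (x * y * x⁻¹) y⁻¹) i
  rw [h1]
  have h2 : ∀ y : K, ∑ x : K, rho φ (x * y * x⁻¹) i * rho φ y⁻¹ i =
      ((Fintype.card K : ℂ) / d i) • ((rho φ y i).trace • rho φ y⁻¹ i) := by
    intro y
    rw [← Finset.sum_mul, sum_conj, smul_mul_assoc, one_mul, smul_smul]
    congr 1
    ring
  simp_rw [h2]
  rw [← Finset.smul_sum, sum_trace_rho φ hd, smul_smul, sq]

lemma map_comSum_pow (hd : ∀ i, NeZero (d i)) (i : ι) (g : ℕ) :
    φ (comSum ℂ K ^ g) i = (((Fintype.card K : ℂ) / d i) ^ (2 * g)) • 1 := by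
  rw [map_pow, Pi.pow_apply, map_comSum φ hd, smul_pow, one_pow, pow_mul]

/-- The product of the commutators of a tuple of pairs. -/
def comProd {K : Type*} [Group K] {g : ℕ} (f : Fin g → K × K) : K :=
  (List.ofFn fun i => (f i).1 * (f i).2 * (f i).1⁻¹ * (f i).2⁻¹).prod

omit [Fintype K] in
lemma comProd_cons {g : ℕ} (a : K × K) (f : Fin g → K × K) :
    comProd (Fin.cons a f : Fin (g + 1) → K × K) = a.1 * a.2 * a.1⁻¹ * a.2⁻¹ * comProd f := by
  simp [comProd, List.ofFn_succ]

lemma comSum_pow (R : Type*) [Semiring R] (g : ℕ) :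
    comSum R K ^ g = ∑ f : Fin g → K × K, MonoidAlgebra.single (comProd f) (1 : R) := by
  induction g with
  | zero => simp [comProd, MonoidAlgebra.one_def]
  | succ g ih =>
    rw [pow_succ', ih, comSum, Finset.sum_mul_sum, ← Fintype.sum_prod_type',
      ← Equiv.sum_comp (Fin.consEquiv fun _ : Fin (g + 1) => K × K)]
    refine Finset.sum_congr rfl fun x _ => ?_
    rw [MonoidAlgebra.single_mul_single, mul_one]
    congr 1
    exact (comProd_cons x.1 x.2).symm

/-- The number of `g`-tuples of pairs whose product of commutators is trivial, i.e. the number of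
homomorphisms from the fundamental group of the closed orientable surface of genus `g`. -/
def nHom (K : Type*) [Group K] (g : ℕ) : ℕ := Nat.card {f : Fin g → K × K // comProd f = 1}

lemma coeff_comSum_pow (g : ℕ) : (comSum ℂ K ^ g).coeff 1 = nHom K g := by
  classical
  rw [comSum_pow, MonoidAlgebra.coeff_sum, Finsupp.finsetSum_apply, nHom, Nat.card_eq_fintype_card,
    Fintype.card_subtype]
  simp [Finsupp.single_apply, Finset.sum_boole]

include φ in
theorem frobenius_mednykh_complex (hd : ∀ i, NeZero (d i)) (g : ℕ) :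
    (Fintype.card K : ℂ) * nHom K g = ∑ i, (d i : ℂ) ^ 2 * ((Fintype.card K : ℂ) / d i) ^ (2 * g) := by
  rw [← coeff_comSum_pow, coeff_one φ]
  refine Finset.sum_congr rfl fun i _ => ?_
  rw [map_comSum_pow φ hd, Matrix.trace_smul, Matrix.trace_one]
  simp only [Fintype.card_fin, smul_eq_mul]
  ring

include φ in
/-- The degrees divide the group order. -/
theorem dvd_card (hd : ∀ i, NeZero (d i)) (i : ι) : d i ∣ Fintype.card K := by
  have hd0 : d i ≠ 0 := NeZero.ne (d i)
  have hd' : (d i : ℂ) ≠ 0 := by exact_mod_cast hd0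
  have h1 : IsIntegral ℤ (comSum ℤ K) := by
    have : Module.Finite ℤ (MonoidAlgebra ℤ K) := Module.Finite.of_basis (MonoidAlgebra.basis K ℤ)
    exact IsIntegral.of_finite ℤ _
  let ψ : MonoidAlgebra ℤ K →+* Matrix (Fin (d i)) (Fin (d i)) ℂ :=
    ((Pi.evalRingHom _ i).comp (φ : MonoidAlgebra ℂ K →+* MatAlg d)).comp
      (MonoidAlgebra.mapRingHom K (Int.castRingHom ℂ))
  have h2 : ψ (comSum ℤ K) = algebraMap ℂ _ (((Fintype.card K : ℂ) / d i) ^ 2) := by
    rw [Algebra.algebraMap_eq_smul_one, ← map_comSum φ hd i]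
    simp [ψ, comSum]
  have h3 : IsIntegral ℤ (((Fintype.card K : ℂ) / d i) ^ 2) := by
    have h4 : IsIntegral ℤ (ψ (comSum ℤ K)) := by
      exact h1.map (ψ.toIntAlgHom)
    rw [h2] at h4
    exact (isIntegral_algebraMap_iff (FaithfulSMul.algebraMap_injective _ _)).mp h4
  have h5 : IsIntegral ℤ ((Fintype.card K : ℂ) / d i) := IsIntegral.of_pow (by norm_num) h3
  have h6 : IsIntegral ℤ ((Fintype.card K : ℚ) / d i) := by
    have h7 : (algebraMap ℚ ℂ) ((Fintype.card K : ℚ) / d i) = (Fintype.card K : ℂ) / d i := by simp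
    rw [← h7] at h5
    exact (isIntegral_algebraMap_iff (FaithfulSMul.algebraMap_injective ℚ ℂ)).mp h5
  obtain ⟨m, hm⟩ := IsIntegrallyClosed.isIntegral_iff.mp h6
  have h7 : (m : ℚ) * d i = Fintype.card K := by
    have : (d i : ℚ) ≠ 0 := by exact_mod_cast hd0
    rw [eq_div_iff this] at hm
    simpa using hm
  have h8 : m * (d i : ℤ) = (Fintype.card K : ℤ) := by exact_mod_cast h7
  exact_mod_cast (Dvd.intro_left m h8 : (d i : ℤ) ∣ (Fintype.card K : ℤ))

include φ in
/-- **The Frobenius-Mednykh formula.** -/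
theorem frobenius_mednykh (hd : ∀ i, NeZero (d i)) {g : ℕ} (hg : 1 ≤ g) :
    nHom K g = Fintype.card K * ∑ i, (Fintype.card K / d i) ^ (2 * g - 2) := by
  have hK : (Fintype.card K : ℂ) ≠ 0 := by exact_mod_cast Fintype.card_ne_zero
  have h := frobenius_mednykh_complex φ hd g
  have h1 : ∀ i, (d i : ℂ) ^ 2 * ((Fintype.card K : ℂ) / d i) ^ (2 * g)
      = (Fintype.card K : ℂ) ^ 2 * (((Fintype.card K / d i : ℕ) : ℂ)) ^ (2 * g - 2) := by
    intro i
    have hd' : (d i : ℂ) ≠ 0 := by exact_mod_cast (NeZero.ne (d i))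
    rw [Nat.cast_div (dvd_card φ hd i) hd']
    obtain ⟨n, rfl⟩ : ∃ n, g = n + 1 := ⟨g - 1, by omega⟩
    have : 2 * (n + 1) - 2 = 2 * n := by omega
    rw [this, mul_add, mul_one, pow_add]
    field_simp
  simp_rw [h1] at h
  rw [← Finset.mul_sum, sq, mul_assoc] at h
  have h2 := mul_left_cancel₀ hK h
  exact_mod_cast h2

/-- The genus `g_N = 1 + (p - 1) p ^ N`. -/
def gen (p N : ℕ) : ℕ := 1 + (p - 1) * p ^ N

lemma one_le_gen (p N : ℕ) : 1 ≤ gen p N := by unfold gen; omega

lemma two_gen (p N : ℕ) : 2 * gen p N - 2 = 2 * ((p - 1) * p ^ N) := by unfold gen; omega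

lemma pow_gen_of_not_dvd {p : ℕ} (hp : p.Prime) (N : ℕ) {m : ℕ} (hm : ¬ p ∣ m) :
    m ^ (2 * gen p N - 2) ≡ 1 [MOD p ^ (N + 1)] := by
  have h1 : Nat.Coprime m (p ^ (N + 1)) :=
    (Nat.Coprime.pow_right _ ((Nat.Prime.coprime_iff_not_dvd hp).mpr hm).symm)
  have h2 := Nat.ModEq.pow_totient h1
  rw [Nat.totient_prime_pow_succ hp] at h2
  rw [two_gen, mul_comm 2, mul_comm (p - 1), pow_mul]
  simpa using h2.pow 2

lemma pow_gen_of_dvd {p : ℕ} (hp : p.Prime) (N : ℕ) {m : ℕ} (hm : p ∣ m) :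
    m ^ (2 * gen p N - 2) ≡ 0 [MOD p ^ (N + 1)] := by
  rw [Nat.modEq_zero_iff_dvd]
  refine dvd_trans ?_ (pow_dvd_pow_of_dvd hm _)
  refine pow_dvd_pow _ ?_
  rw [two_gen]
  have h1 : N < p ^ N := Nat.lt_pow_self hp.one_lt
  have h2 : 1 ≤ p - 1 := by have := hp.two_le; omega
  nlinarith

include φ in
/-- **The number of homomorphisms from a surface group of genus `g_N` modulo `p ^ (N + 1) |K|`.** -/
theorem nHom_modEq {p : ℕ} (hp : p.Prime) (hd : ∀ i, NeZero (d i)) (N : ℕ) :
    nHom K (gen p N) ≡ Fintype.card K * (Finset.univ.filter fun i => ¬ p ∣ Fintype.card K / d i).card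
      [MOD Fintype.card K * p ^ (N + 1)] := by
  rw [frobenius_mednykh φ hd (one_le_gen p N)]
  refine Nat.ModEq.mul_left' _ ?_
  rw [Finset.card_filter]
  refine Nat.ModEq.sum fun i _ => ?_
  by_cases h : p ∣ Fintype.card K / d i
  · simpa [h] using pow_gen_of_dvd hp N h
  · simpa [h] using pow_gen_of_not_dvd hp N h

end

end Vale.Agent.P179.H525
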