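import Vale.Agent.P179.H525.Tup

/-! # The weight conjecture and surjective homomorphisms from surface groups -/

namespace P179H524

open Subgroup Vale.Agent.P179.H525

lemma card_tup (g : ℕ) (A : Type*) : Nat.card (Tup g A) = Nat.card A ^ (2 * g) := by
  rw [Nat.card_fun, Nat.card_prod, Nat.card_eq_fintype_card (α := Fin g), Fintype.card_fin, ← sq,
    ← pow_mul]

/-- the image of tuples as a homomorphism -/
def tupHom (g : ℕ) {A B : Type*} [Group A] [Group B] (f : A →* B) : Tup g A →* Tup g B where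
  toFun := Tup.map f
  map_one' := by funext i; simp [Tup.map]
  map_mul' s t := by funext i; simp [Tup.map]

lemma card_comProd_mem (g : ℕ) {A B : Type*} [Group A] [Group B] [Finite A] [Finite B] (f : A →* B)
    (hf : Function.Surjective f) :
    Nat.card {s : Tup g A // comProd s ∈ f.ker} = Nat.card f.ker ^ (2 * g) * nHom B g := by
  have hs : Function.Surjective (tupHom g f) := by
    intro t
    refine ⟨fun i => ((hf (t i).1).choose, (hf (t i).2).choose), ?_⟩
    funext i
    exact Prod.ext (hf (t i).1).choose_spec (hf (t i).2).choose_spec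
  have h1 := card_preimage (tupHom g f) hs {t | comProd t = 1}
  have h2 := card_preimage (tupHom g f) hs Set.univ
  have h3 : Nat.card {s : Tup g A // comProd s ∈ f.ker} =
      Nat.card {s : Tup g A // tupHom g f s ∈ {t : Tup g B | comProd t = 1}} := by
    refine Nat.card_congr (Equiv.subtypeEquivRight fun s => ?_)
    rw [MonoidHom.mem_ker, ← comProd_map]
    exact Iff.rfl
  rw [h3, h1]
  have h4 : Nat.card (tupHom g f).ker = Nat.card f.ker ^ (2 * g) := by
    have h5 : Nat.card {a : Tup g A // tupHom g f a ∈ (Set.univ : Set (Tup g B))} = Nat.card A ^ (2 * g) := by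
      rw [← card_tup]
      exact Nat.card_congr (Equiv.subtypeUnivEquiv fun _ => Set.mem_univ _)
    have h6 : Nat.card (Set.univ : Set (Tup g B)) = Nat.card B ^ (2 * g) := by
      rw [← card_tup]
      exact Nat.card_congr (Equiv.Set.univ _)
    have h7 : Nat.card A = Nat.card B * Nat.card f.ker := by
      rw [← Nat.card_congr (QuotientGroup.quotientKerEquivOfSurjective f hf).toEquiv]
      exact card_eq_card_quotient_mul_card_subgroup f.ker
    rw [h5, h6, h7, mul_pow, mul_comm] at h2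
    have h8 : 0 < Nat.card B ^ (2 * g) := pow_pos Nat.card_pos _
    exact (Nat.eq_of_mul_eq_mul_right h8 h2).symm
  rw [h4]
  rfl

lemma card_fiber (g : ℕ) {G : Type*} [Group G] [Finite G] (Q : Subgroup G) :
    Nat.card {s : Tup g G // s.ent ⊆ (normalizer (Q : Set G) : Set G) ∧ comProd s ∈ Q} =
      Nat.card Q ^ (2 * g) * nHom (NQ Q) g := by
  set N := normalizer (Q : Set G) with hN
  have hQN : Q ≤ N := le_normalizer
  let f : N →* NQ Q := QuotientGroup.mk' (Q.subgroupOf N)
  have hf : Function.Surjective f := QuotientGroup.mk'_surjective _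
  have hker : f.ker = Q.subgroupOf N := QuotientGroup.ker_mk' _
  have h1 := card_comProd_mem g f hf
  have h2 : Nat.card f.ker = Nat.card Q := by
    rw [hker]
    exact Nat.card_congr (subgroupOfEquivOfLe hQN).toEquiv
  rw [h2] at h1
  rw [← h1]
  have hmem : ∀ s : Tup g N, comProd (Tup.map N.subtype s) ∈ Q ↔ comProd s ∈ f.ker := by
    intro s
    rw [comProd_map, hker, mem_subgroupOf]
    rfl
  refine Nat.card_congr
    { toFun := fun s => ⟨fun i => (⟨(s.1 i).1, s.2.1 ⟨i, Or.inl rfl⟩⟩, ⟨(s.1 i).2, s.2.1 ⟨i, Or.inr rfl⟩⟩),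
        (hmem _).mp s.2.2⟩
      invFun := fun s => ⟨Tup.map N.subtype s.1, ?_, (hmem _).mpr s.2⟩
      left_inv := fun _ => rfl
      right_inv := fun _ => rfl }
  rw [Tup.ent_map]
  rintro _ ⟨y, _, rfl⟩
  exact y.2

theorem sum_pw (p g : ℕ) (G : Type*) [Group G] [Finite G] :
    ∑ᶠ x : {x : Subgroup G × Tup g G // x ∈ SSet p g G}, pw x.1 =
      ∑ᶠ Q : {Q : Subgroup G // IsPGroup p Q}, (Nat.card Q.1 : ℚ) * nHom (NQ Q.1) g := by
  classical
  have := Fintype.ofFinite G
  have := Fintype.ofFinite {Q : Subgroup G // IsPGroup p Q}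
  have := Fintype.ofFinite {x : Subgroup G × Tup g G // x ∈ SSet p g G}
  rw [finsum_eq_sum_of_fintype, finsum_eq_sum_of_fintype]
  symm
  refine sum_fibers (fun x => (⟨x.1.1, x.2.1⟩ : {Q : Subgroup G // IsPGroup p Q})) _ _ fun Q => ?_
  have := Fintype.ofFinite {x : {x : Subgroup G × Tup g G // x ∈ SSet p g G} //
    (⟨x.1.1, x.2.1⟩ : {Q : Subgroup G // IsPGroup p Q}) = Q}
  rw [finsum_eq_sum_of_fintype]
  have h1 : ∀ x : {x : {x : Subgroup G × Tup g G // x ∈ SSet p g G} //
    (⟨x.1.1, x.2.1⟩ : {Q : Subgroup G // IsPGroup p Q}) = Q}, pw x.1.1 =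
      (Nat.card Q.1 : ℚ) / (Nat.card Q.1 : ℚ) ^ (2 * g) := by
    rintro ⟨x, rfl⟩
    rfl
  rw [Finset.sum_congr rfl fun x _ => h1 x]
  simp only [Finset.sum_const, Finset.card_univ, nsmul_eq_mul]
  rw [← Nat.card_eq_fintype_card]
  have h2 : Nat.card {x : {x : Subgroup G × Tup g G // x ∈ SSet p g G} //
    (⟨x.1.1, x.2.1⟩ : {Q : Subgroup G // IsPGroup p Q}) = Q} =
      Nat.card {s : Tup g G // s.ent ⊆ (normalizer (Q.1 : Set G) : Set G) ∧ comProd s ∈ Q.1} := by
    refine Nat.card_congr
      { toFun := fun x => ⟨x.1.1.2, by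
          have h3 : x.1.1.1 = Q.1 := congrArg Subtype.val x.2
          rw [← h3]
          exact x.1.2.2⟩
        invFun := fun s => ⟨⟨(Q.1, s.1), Q.2, s.2⟩, rfl⟩
        left_inv := ?_
        right_inv := fun _ => rfl }
    rintro ⟨x, rfl⟩
    rfl
  rw [h2, card_fiber]
  have h3 : (Nat.card Q.1 : ℚ) ≠ 0 := by exact_mod_cast Nat.card_pos.ne'
  push_cast
  field_simp

end P179H524
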