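import Vale.Agent.P179.H525.MainA

/-! # The weight conjecture and surjective homomorphisms from surface groups, II -/

namespace P179H524

open Subgroup Vale.Agent.P179.H525

/-! ### abelian groups -/

lemma numHom_abelian (g : ℕ) (K : Type*) [Group K] (hK : ∀ a b : K, a * b = b * a) :
    nHom K g = Nat.card K ^ (2 * g) := by
  rw [← card_tup]
  refine Nat.card_congr (Equiv.subtypeUnivEquiv fun f => ?_)
  rw [comProd]
  apply List.prod_eq_one
  intro x hx
  rw [List.mem_ofFn] at hx
  obtain ⟨i, rfl⟩ := hx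
  rw [hK (f i).1 (f i).2]
  group

lemma numDZ_abelian (p : ℕ) [hp : Fact p.Prime] (K : Type) [Group K] [Finite K]
    (hK : ∀ a b : K, a * b = b * a) (hpK : ¬ p ∣ Nat.card K) : numDZ p K = Nat.card K := by
  set N := numDZ p K + Nat.card K with hN
  have h1 := numHom_modEq' p K N
  rw [numHom_eq_nHom, numHom_abelian _ _ hK] at h1
  have h2 : 1 ≤ gN p N := by unfold gN; omega
  have h3 : Nat.card K ^ (2 * gN p N) = Nat.card K * (Nat.card K ^ (2 * gN p N - 2) * Nat.card K) := by
    obtain ⟨m, hm⟩ : ∃ m, gN p N = m + 1 := ⟨gN p N - 1, by omega⟩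
    rw [hm]
    have : 2 * (m + 1) - 2 = 2 * m := by omega
    rw [this]
    ring
  rw [h3] at h1
  have h4 : Nat.card K ^ (2 * gN p N - 2) * Nat.card K ≡ numDZ p K [MOD p ^ (N + 1)] :=
    Nat.ModEq.mul_left_cancel' Nat.card_pos.ne' h1
  have h5 : Nat.card K ^ (2 * gN p N - 2) ≡ 1 [MOD p ^ (N + 1)] := pow_gen_of_not_dvd hp.out N hpK
  have h6 : Nat.card K ≡ numDZ p K [MOD p ^ (N + 1)] := by
    have := h5.mul_right (Nat.card K)
    rw [one_mul] at this
    exact this.symm.trans h4
  have h7 : N + 1 < p ^ (N + 1) := Nat.lt_pow_self hp.out.one_lt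
  exact (Nat.ModEq.eq_of_lt_of_lt h6 (by omega) (by omega)).symm

lemma not_dvd_of_abelian (p : ℕ) [hp : Fact p.Prime] (G : Type*) [Group G] [Finite G]
    (hG : ∀ a b : G, a * b = b * a) (hO : OpTrivial p G) : ¬ p ∣ Nat.card G := by
  intro h
  obtain ⟨x, hx⟩ := exists_prime_orderOf_dvd_card' p h
  have hn : (zpowers x).Normal := ⟨fun n hn g => by rw [hG g n, mul_inv_cancel_right]; exact hn⟩
  have h1 := hO (zpowers x) hn (IsPGroup.of_card (n := 1) (by rw [Nat.card_zpowers, hx, pow_one]))
  rw [zpowers_eq_bot] at h1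
  rw [h1, orderOf_one] at hx
  exact hp.out.one_lt.ne hx

/-- The weight conjecture for abelian groups of order prime to `p`. -/
lemma awc_abelian (p : ℕ) [hp : Fact p.Prime] (k : Type*) [Field k] [IsAlgClosed k] [CharP k p]
    (G : Type) [Group G] [Finite G] (hG : ∀ a b : G, a * b = b * a) (hO : OpTrivial p G) :
    numSimple k G = numWeights p G := by
  classical
  have hpG := not_dvd_of_abelian p G hG hO
  have hN : ∀ Q : Subgroup G, Q.Normal := fun Q =>
    ⟨fun n hn g => by rw [hG g n, mul_inv_cancel_right]; exact hn⟩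
  have h1 : numSimple k G = Nat.card G := by
    have h2 := card_mul_numSimple p k G
    have h3 : Nat.card {xy : G × G // Commute xy.1 xy.2 ∧ ¬ p ∣ orderOf xy.1} =
        Nat.card G * Nat.card G := by
      rw [← Nat.card_prod]
      refine Nat.card_congr (Equiv.subtypeUnivEquiv fun x => ⟨hG _ _, fun h => ?_⟩)
      exact hpG (h.trans (orderOf_dvd_natCard x.1))
    rw [h3] at h2
    exact Nat.eq_of_mul_eq_mul_left Nat.card_pos h2
  have h4 : numWeights p G = Nat.card G := by
    have h5 := card_mul_numWeights p G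
    have h6 : ∀ Q : {Q : Subgroup G // IsPGroup p Q}, Q = ⟨⊥, IsPGroup.of_bot⟩ := fun Q =>
      Subtype.ext (hO Q.1 (hN Q.1) Q.2)
    let _ : Unique {Q : Subgroup G // IsPGroup p Q} := ⟨⟨⟨⊥, IsPGroup.of_bot⟩⟩, h6⟩
    rw [finsum_unique] at h5
    change _ = Nat.card (normalizer ((⊥ : Subgroup G) : Set G)) * numDZ p (NQ (⊥ : Subgroup G)) at h5
    have h7 : normalizer ((⊥ : Subgroup G) : Set G) = ⊤ := normalizer_eq_top _
    have h8 : Nat.card (normalizer ((⊥ : Subgroup G) : Set G)) = Nat.card G := by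
      rw [h7]; exact card_top
    have h9 : Nat.card (NQ (⊥ : Subgroup G)) = Nat.card G := by
      have h10 := card_eq_card_quotient_mul_card_subgroup
        ((⊥ : Subgroup G).subgroupOf (normalizer ((⊥ : Subgroup G) : Set G)))
      rw [bot_subgroupOf, card_bot, mul_one, h8] at h10
      rw [NQ, bot_subgroupOf]
      exact h10.symm
    have h11 : numDZ p (NQ (⊥ : Subgroup G)) = Nat.card G := by
      rw [numDZ_abelian p (NQ (⊥ : Subgroup G)), h9]
      · intro a b
        obtain ⟨a, rfl⟩ := QuotientGroup.mk_surjective a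
        obtain ⟨b, rfl⟩ := QuotientGroup.mk_surjective b
        rw [← QuotientGroup.mk_mul, ← QuotientGroup.mk_mul]
        congr 1
        exact Subtype.ext (hG _ _)
      · rw [h9]; exact hpG
    rw [h8, h11] at h5
    exact Nat.eq_of_mul_eq_mul_left Nat.card_pos h5
  rw [h1, h4]

/-! ### the key congruence -/

/-- the rational numbers which are integer multiples of `p ^ (N + 1)` -/
def PZ (p N : ℕ) : AddSubgroup ℚ := AddSubgroup.zmultiples ((p : ℚ) ^ (N + 1))

lemma mem_PZ {p N : ℕ} {x : ℚ} : x ∈ PZ p N ↔ ∃ z : ℤ, x = p ^ (N + 1) * z := by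
  rw [PZ, AddSubgroup.mem_zmultiples_iff]
  constructor
  · rintro ⟨z, hz⟩
    exact ⟨z, by rw [← hz, zsmul_eq_mul, mul_comm]⟩
  · rintro ⟨z, hz⟩
    exact ⟨z, by rw [hz, zsmul_eq_mul, mul_comm]⟩

lemma mul_mem_PZ {p N : ℕ} {x : ℚ} (h : x ∈ PZ p N) (n : ℕ) : (n : ℚ) * x ∈ PZ p N := by
  rw [← nsmul_eq_mul]
  exact AddSubgroup.nsmul_mem _ h n

lemma natCast_mem_PZ {p N n : ℕ} : (n : ℚ) ∈ PZ p N ↔ p ^ (N + 1) ∣ n := by
  rw [mem_PZ]
  constructor
  · rintro ⟨z, hz⟩
    have : (n : ℤ) = p ^ (N + 1) * z := by exact_mod_cast hz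
    have h2 : ((p ^ (N + 1) : ℕ) : ℤ) ∣ (n : ℤ) := ⟨z, by push_cast; exact this⟩
    exact_mod_cast h2
  · rintro ⟨m, hm⟩
    exact ⟨m, by rw [hm]; push_cast; rfl⟩

lemma modEq_mem_PZ {p N a b : ℕ} (h : a ≡ b [MOD p ^ (N + 1)]) : (a : ℚ) - b ∈ PZ p N := by
  obtain ⟨z, hz⟩ := (Nat.modEq_iff_dvd.mp h.symm)
  rw [mem_PZ]
  refine ⟨z, ?_⟩
  have : ((a : ℤ) : ℚ) - ((b : ℤ) : ℚ) = (((a : ℤ) - (b : ℤ) : ℤ) : ℚ) := by push_cast; rfl
  have h2 : (a : ℚ) - b = ((a : ℤ) : ℚ) - ((b : ℤ) : ℚ) := by push_cast; rfl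
  rw [h2, this, hz]
  push_cast
  rfl

lemma eq_zero_of_mem_PZ {p : ℕ} (hp : 1 < p) {z : ℤ} (h : ∀ N, (z : ℚ) ∈ PZ p N) : z = 0 := by
  by_contra hz
  obtain ⟨w, hw⟩ := mem_PZ.mp (h z.natAbs)
  have h1 : z = p ^ (z.natAbs + 1) * w := by exact_mod_cast hw
  have h2 : ((p ^ (z.natAbs + 1) : ℕ) : ℤ) ∣ z := ⟨w, by push_cast; exact h1⟩
  have h3 := Int.natAbs_dvd_natAbs.mpr h2
  rw [Int.natAbs_natCast] at h3
  have h4 := Nat.le_of_dvd (Int.natAbs_pos.mpr hz) h3
  have h5 : z.natAbs + 1 < p ^ (z.natAbs + 1) := Nat.lt_pow_self hp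
  omega

/-- the difference of the numbers of weights and of simple modules, times the order -/
noncomputable def Dq (p : ℕ) (k : Type*) [Field k] (G : Type*) [Group G] : ℤ :=
  Nat.card G * ((numWeights p G : ℤ) - numSimple k G)

/-- The contribution of the group itself to `Dq`. -/
noncomputable def dl (p N : ℕ) (G : Type*) [Group G] : ℚ := wt p (gN p N) G - ct p G

theorem key (p : ℕ) [Fact p.Prime] (k : Type*) [Field k] [IsAlgClosed k] [CharP k p]
    (G : Type) [Group G] [Finite G] (N : ℕ) :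
    ∑ᶠ L : Subgroup G, dl p N L - Dq p k G ∈ PZ p N := by
  classical
  have := Fintype.ofFinite G
  have := Fintype.ofFinite (Subgroup G)
  have := Fintype.ofFinite {Q : Subgroup G // IsPGroup p Q}
  have h1 := (sum_wt p (gN p N) G).trans (sum_pw p (gN p N) G)
  have h2 := sum_ct p G
  have h3 := card_mul_numWeights p G
  have h4 := card_mul_numSimple p k G
  rw [finsum_eq_sum_of_fintype] at h1 h2 h3 ⊢
  rw [finsum_eq_sum_of_fintype] at h1
  simp only [dl, Finset.sum_sub_distrib]
  have h5 : (Nat.card {z : G × G // z ∈ CSet p G} : ℚ) = Nat.card G * numSimple k G := by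
    exact_mod_cast h4.symm
  have h6 : ((Dq p k G : ℤ) : ℚ) = ((Nat.card G * numWeights p G : ℕ) : ℚ) -
      Nat.card G * numSimple k G := by
    rw [Dq]; push_cast; ring
  rw [h1, h2, h5, h6, h3]
  push_cast
  rw [sub_sub_sub_cancel_right, ← Finset.sum_sub_distrib]
  refine AddSubgroup.sum_mem _ fun Q _ => ?_
  set M := normalizer (Q.1 : Set G) with hM
  have h7 : Nat.card M = Nat.card (NQ Q.1) * Nat.card Q.1 := by
    have h8 := card_eq_card_quotient_mul_card_subgroup (Q.1.subgroupOf M)
    rw [h8]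
    congr 1
    exact Nat.card_congr (subgroupOfEquivOfLe le_normalizer).toEquiv
  have h9 := modEq_mem_PZ (numHom_modEq p (NQ Q.1) N)
  rw [numHom_eq_nHom] at h9
  have h10 : (Nat.card Q.1 : ℚ) * nHom (NQ Q.1) (gN p N) - (Nat.card M : ℚ) * numDZ p (NQ Q.1) =
      (Nat.card Q.1 : ℚ) * ((nHom (NQ Q.1) (gN p N) : ℚ) -
        ((Nat.card (NQ Q.1) * numDZ p (NQ Q.1) : ℕ) : ℚ)) := by
    rw [h7]; push_cast; ring
  rw [h10]
  exact mul_mem_PZ h9 _

lemma dl_top (p N : ℕ) (G : Type*) [Group G] : dl p N (⊤ : Subgroup G) = dl p N G := by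
  rw [dl, dl, wt_top, ct_top]

theorem key' (p : ℕ) [Fact p.Prime] (k : Type*) [Field k] [IsAlgClosed k] [CharP k p]
    (G : Type) [Group G] [Finite G] (N : ℕ) (h : ∀ L : Subgroup G, L ≠ ⊤ → dl p N L ∈ PZ p N) :
    dl p N G - Dq p k G ∈ PZ p N := by
  classical
  have := Fintype.ofFinite (Subgroup G)
  have h1 := key p k G N
  rw [finsum_eq_sum_of_fintype, ← Finset.add_sum_erase _ _ (Finset.mem_univ (⊤ : Subgroup G)),
    dl_top, add_sub_right_comm] at h1
  refine (AddSubgroup.add_mem_cancel_right _ ?_).mp h1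
  exact AddSubgroup.sum_mem _ fun L hL => h L (Finset.ne_of_mem_erase hL)

/-! ### surjective homomorphisms -/

lemma surjective_iff (g : ℕ) {H : Type*} [Group H] (f : SurfaceGroup g →* H) :
    Function.Surjective f ↔ closure (Tup.ent (surfaceHomEquiv g H f).1) = ⊤ := by
  have h1 : Tup.ent (surfaceHomEquiv g H f).1 = f '' (Set.range (PresentedGroup.of :
      Fin g × Bool → PresentedGroup ({surfaceRelator g} : Set (FreeGroup (Fin g × Bool))))) := by
    ext x
    constructor
    · rintro ⟨i, rfl | rfl⟩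
      · exact ⟨_, ⟨(i, false), rfl⟩, rfl⟩
      · exact ⟨_, ⟨(i, true), rfl⟩, rfl⟩
    · rintro ⟨_, ⟨⟨i, b⟩, rfl⟩, rfl⟩
      cases b
      · exact ⟨i, Or.inl rfl⟩
      · exact ⟨i, Or.inr rfl⟩
  rw [h1, ← MonoidHom.map_closure, PresentedGroup.closure_range_of, ← MonoidHom.range_eq_map,
    MonoidHom.range_eq_top]

lemma wt_eq_numEpi (p g : ℕ) (H : Type*) [Group H] [Finite H] (hO : OpTrivial p H) :
    wt p g H = numEpi g H := by
  classical
  have := Fintype.ofFinite {x : Subgroup H × Tup g H // x ∈ SSet p g H ∧ supp x = ⊤}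
  have hbot : ∀ x : Subgroup H × Tup g H, x ∈ SSet p g H → supp x = ⊤ → x.1 = ⊥ := by
    intro x hx hs
    have h1 : supp x ≤ normalizer (x.1 : Set H) :=
      sup_le le_normalizer ((closure_le _).mpr hx.2.1)
    rw [hs, top_le_iff, normalizer_eq_top_iff] at h1
    exact hO x.1 h1 hx.1
  rw [wt, finsum_eq_sum_of_fintype]
  have h1 : ∀ x : {x : Subgroup H × Tup g H // x ∈ SSet p g H ∧ supp x = ⊤}, pw x.1 = 1 := by
    rintro ⟨x, hx, hs⟩
    rw [pw]
    simp only
    rw [hbot x hx hs, card_bot]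
    simp
  rw [Finset.sum_congr rfl fun x _ => h1 x]
  simp only [Finset.sum_const, Finset.card_univ, nsmul_eq_mul, mul_one, Nat.cast_inj]
  rw [← Nat.card_eq_fintype_card, numEpi]
  symm
  let e : {f : SurfaceGroup g →* H // Function.Surjective f} →
      {x : Subgroup H × Tup g H // x ∈ SSet p g H ∧ supp x = ⊤} := fun f =>
    ⟨(⊥, (surfaceHomEquiv g H f.1).1), ⟨IsPGroup.of_bot, by
      rw [normalizer_eq_top]
      exact fun _ _ => trivial, (surfaceHomEquiv g H f.1).2⟩, by
      rw [supp, bot_sup_eq]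
      exact (surjective_iff g f.1).mp f.2⟩
  refine Nat.card_congr (Equiv.ofBijective e ⟨?_, ?_⟩)
  · intro f f' h
    have h2 := (Prod.ext_iff.mp (congrArg Subtype.val h)).2
    exact Subtype.ext ((surfaceHomEquiv g H).injective (Subtype.ext h2))
  · rintro ⟨⟨Q, s⟩, hx, hs⟩
    have hQ : Q = ⊥ := hbot (Q, s) hx hs
    subst hQ
    have hs1 : comProd s = 1 := hx.2.2
    refine ⟨⟨(surfaceHomEquiv g H).symm ⟨s, hs1⟩, ?_⟩, ?_⟩
    · rw [surjective_iff, Equiv.apply_symm_apply]
      rw [supp, bot_sup_eq] at hs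
      exact hs
    · apply Subtype.ext
      change ((⊥ : Subgroup H), (surfaceHomEquiv g H ((surfaceHomEquiv g H).symm ⟨s, hs1⟩)).1) = _
      rw [Equiv.apply_symm_apply]

lemma ct_eq_zero (p : ℕ) (H : Type*) [Group H] (hH : NonAbelian H) : ct p H = 0 := by
  rw [ct]
  have : IsEmpty {z : H × H // (Commute z.1 z.2 ∧ ¬ p ∣ orderOf z.1) ∧ closure {z.1, z.2} = ⊤} := by
    refine ⟨fun z => ?_⟩
    obtain ⟨⟨x, y⟩, ⟨h1, _⟩, h2⟩ := z
    obtain ⟨a, b, hab⟩ := hH
    apply hab
    have hc : ∀ u ∈ ({x, y} : Set H), ∀ v ∈ ({x, y} : Set H), u * v = v * u := by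
      have h3 : x * y = y * x := h1
      rintro u (rfl | rfl) v (rfl | rfl)
      · rfl
      · exact h3
      · exact h3.symm
      · rfl
    have ha : a ∈ closure ({x, y} : Set H) := by rw [h2]; trivial
    have hb : b ∈ closure ({x, y} : Set H) := by rw [h2]; trivial
    have h4 := (Subgroup.isMulCommutative_closure hc)
    exact congrArg Subtype.val (h4.is_comm.comm ⟨a, ha⟩ ⟨b, hb⟩)
  exact Nat.card_of_isEmpty

/-- **(i) ⇔ (ii)** -/
theorem mainA (p : ℕ) [hp : Fact p.Prime] (k : Type*) [Field k] [IsAlgClosed k] [CharP k p] :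
    (∀ (G : Type) [Group G] [Finite G], numSimple k G = numWeights p G) ↔
      ∀ (H : Type) [Group H] [Finite H], NonAbelian H → OpTrivial p H →
        ∀ N : ℕ, p ^ (N + 1) ∣ numEpi (1 + (p - 1) * p ^ N) H := by
  constructor
  · intro hA
    have hD : ∀ (G : Type) [Group G] [Finite G], Dq p k G = 0 := by
      intro G _ _
      rw [Dq, hA G, sub_self, mul_zero]
    have h1 : ∀ (n : ℕ) (G : Type) [Group G] [Finite G], Nat.card G = n → ∀ N, dl p N G ∈ PZ p N := by
      intro n
      induction n using Nat.strong_induction_on with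
      | _ n ih =>
        intro G _ _ hn N
        have h2 := key' p k G N fun L hL => by
          have h3 : Nat.card L < Nat.card G := by
            refine lt_of_le_of_ne (card_le_card_group L) fun h4 => hL ?_
            exact (card_eq_iff_eq_top L).mp h4
          exact ih (Nat.card L) (hn ▸ h3) L rfl N
        rw [hD G] at h2
        simpa using h2
    intro H _ _ hH hO N
    have h2 := h1 _ H rfl N
    rw [dl, wt_eq_numEpi p _ H hO, ct_eq_zero p H hH, Nat.cast_zero, sub_zero, natCast_mem_PZ] at h2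
    exact h2
  · intro hB
    have h1 : ∀ (n : ℕ) (G : Type) [Group G] [Finite G], Nat.card G = n →
        numSimple k G = numWeights p G ∧ ∀ N, dl p N G ∈ PZ p N := by
      intro n
      induction n using Nat.strong_induction_on with
      | _ n ih =>
        intro G _ _ hn
        have h2 := fun N => key' p k G N fun L hL => by
          have h3 : Nat.card L < Nat.card G := by
            refine lt_of_le_of_ne (card_le_card_group L) fun h4 => hL ?_
            exact (card_eq_iff_eq_top L).mp h4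
          exact (ih (Nat.card L) (hn ▸ h3) L rfl).2 N
        have h3 : numSimple k G = numWeights p G := by
          by_cases hO : OpTrivial p G
          · by_cases hab : NonAbelian G
            · have h4 : ∀ N, ((Dq p k G : ℤ) : ℚ) ∈ PZ p N := by
                intro N
                have h5 : dl p N G ∈ PZ p N := by
                  rw [dl, wt_eq_numEpi p _ G hO, ct_eq_zero p G hab, Nat.cast_zero, sub_zero,
                    natCast_mem_PZ]
                  exact hB G hab hO N
                have h6 := sub_mem h5 (h2 N)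
                simpa using h6
              have h7 := eq_zero_of_mem_PZ hp.out.one_lt h4
              rw [Dq, mul_eq_zero] at h7
              rcases h7 with h7 | h7
              · exact absurd (by exact_mod_cast h7) (Nat.card_pos (α := G)).ne'
              · have := sub_eq_zero.mp h7
                exact_mod_cast this.symm
            · refine awc_abelian p k G (fun a b => ?_) hO
              by_contra h
              exact hab ⟨a, b, h⟩
          · simp only [OpTrivial, not_forall] at hO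
            obtain ⟨R, hRn, hR, hR1⟩ := hO
            rw [← numSimple_quotient p k G R hR, ← numWeights_quotient p G R hR]
            have h4 : Nat.card (G ⧸ R) < Nat.card G := by
              rw [card_eq_card_quotient_mul_card_subgroup R]
              have h5 : 1 < Nat.card R := by
                rw [one_lt_card_iff_ne_bot]
                exact hR1
              have h6 : 0 < Nat.card (G ⧸ R) := Nat.card_pos
              nlinarith
            exact (ih _ (hn ▸ h4) (G ⧸ R) rfl).1
        refine ⟨h3, fun N => ?_⟩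
        have h4 := h2 N
        have h5 : Dq p k G = 0 := by rw [Dq, h3, sub_self, mul_zero]
        rw [h5] at h4
        simpa using h4
    intro G _ _
    exact (h1 _ G rfl).1

end P179H524
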