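import Vale.Agent.P179.H525.Step1
import Vale.Agent.P179.H905.Chain
import Vale.Agent.P179.H166.Toggle

/-! # Chains and pairs whose commutator is a `p`-element -/

namespace P179A

open Subgroup Finset P179H524

open scoped Classical Pointwise

/-- Divisibility of an invariant sum, orbit by orbit. -/
lemma dvd_sum_of_orbits {Γ X : Type*} [Group Γ] [MulAction Γ X] [Fintype X]
    (F : X → ℤ) (hF : ∀ (g : Γ) (x : X), F (g • x) = F x) (M : ℤ)
    (h : ∀ x, M ∣ (Nat.card (MulAction.orbit Γ x) : ℤ) * F x) : M ∣ ∑ x, F x := by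
  have : Fintype (MulAction.orbitRel.Quotient Γ X) := Quotient.fintype _
  rw [← Finset.sum_fiberwise (g := fun x => (Quotient.mk'' x : MulAction.orbitRel.Quotient Γ X))]
  refine Finset.dvd_sum fun ω _ => ?_
  induction ω using Quotient.inductionOn' with
  | h x =>
    have h1 : ∀ y, (Quotient.mk'' y : MulAction.orbitRel.Quotient Γ X) = Quotient.mk'' x ↔
        y ∈ MulAction.orbit Γ x := by
      intro y
      rw [Quotient.eq'']
      exact MulAction.orbitRel_apply
    have h2 : ∀ y ∈ univ.filter (fun y => (Quotient.mk'' y : MulAction.orbitRel.Quotient Γ X) =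
        Quotient.mk'' x), F y = F x := by
      intro y hy
      rw [mem_filter, h1] at hy
      obtain ⟨g, rfl⟩ := hy.2
      exact hF g x
    rw [Finset.sum_congr rfl h2, sum_const, nsmul_eq_mul]
    have h3 : (univ.filter (fun y => (Quotient.mk'' y : MulAction.orbitRel.Quotient Γ X) =
        Quotient.mk'' x)).card = Nat.card (MulAction.orbit Γ x) := by
      rw [Nat.card_eq_fintype_card, ← Set.toFinset_card]
      congr 1
      ext y
      rw [mem_filter, h1, Set.mem_toFinset]
      simp
    rw [h3]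
    exact h x

/-- the number of pairs whose commutator is a `p`-element -/
noncomputable def cc (p : ℕ) (K : Type*) [Group K] : ℕ :=
  Nat.card {t : K × K // ∃ n, (t.1 * t.2 * t.1⁻¹ * t.2⁻¹) ^ p ^ n = 1}

lemma cc_congr (p : ℕ) {K K' : Type*} [Group K] [Group K'] (e : K ≃* K') : cc p K = cc p K' := by
  refine Nat.card_congr (Equiv.subtypeEquiv (e.toEquiv.prodCongr e.toEquiv) fun t => ?_)
  refine exists_congr fun n => ?_
  change _ ↔ (e t.1 * e t.2 * (e t.1)⁻¹ * (e t.2)⁻¹) ^ p ^ n = 1
  rw [← map_inv, ← map_inv, ← map_mul, ← map_mul, ← map_mul, ← map_pow, map_eq_one_iff e e.injective]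

variable {p : ℕ} {G : Type} [Group G] [Finite G]

theorem sum_W_eq [Fintype G] :
    ∑ t ∈ univ.filter (fun t : G × G => ∃ n, (t.1 * t.2 * t.1⁻¹ * t.2⁻¹) ^ p ^ n = 1),
      W p t.1 t.2 = ∑ s ∈ chains p G, (-1) ^ s.card * (cc p (stab s) : ℤ) := by
  simp only [W]
  rw [Finset.sum_comm' (t' := chains p G) (s' := fun s => univ.filter (fun t : G × G =>
    (∃ n, (t.1 * t.2 * t.1⁻¹ * t.2⁻¹) ^ p ^ n = 1) ∧ t.1 ∈ stab s ∧ t.2 ∈ stab s))]
  · refine Finset.sum_congr rfl fun s _ => ?_
    rw [sum_const, nsmul_eq_mul, mul_comm]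
    congr 2
    rw [cc, ← Fintype.card_subtype, ← Nat.card_eq_fintype_card]
    refine Nat.card_congr
      { toFun := fun t => ⟨(⟨t.1.1, t.2.2.1⟩, ⟨t.1.2, t.2.2.2⟩), by
          obtain ⟨n, hn⟩ := t.2.1
          exact ⟨n, Subtype.ext hn⟩⟩
        invFun := fun t => ⟨((t.1.1 : G), (t.1.2 : G)), by
          obtain ⟨n, hn⟩ := t.2
          exact ⟨⟨n, congrArg Subtype.val hn⟩, t.1.1.2, t.1.2.2⟩⟩
        left_inv := fun _ => rfl
        right_inv := fun _ => rfl }
  · intro t s
    simp only [mem_filter, mem_univ, true_and]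
    tauto

omit [Finite G] in
lemma stab_empty : stab (∅ : Finset (Subgroup G)) = ⊤ := by
  simp [stab]

omit [Finite G] in
/-- The stabiliser of a nonempty chain has a nontrivial normal `p`-subgroup. -/
lemma not_opTrivial_stab {s : Finset (Subgroup G)} (hs : IsPChain p s) (hne : s ≠ ∅) :
    ¬ OpTrivial p (stab s) := by
  intro h
  obtain ⟨Q, hQ, hmin⟩ := Finset.exists_minimal (Finset.nonempty_iff_ne_empty.mpr hne)
  have hle : ∀ R ∈ s, Q ≤ R := by
    intro R hR
    rcases hs.2.total hQ hR with h1 | h1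
    · exact h1
    · exact hmin hR h1
  have hQs : Q ≤ stab s := le_stab.mpr fun R hR => (hle R hR).trans le_normalizer
  have hn : (Q.subgroupOf (stab s)).Normal := by
    refine ⟨fun x hx g => ?_⟩
    rw [mem_subgroupOf] at hx ⊢
    exact (mem_normalizer_iff.mp (mem_stab.mp g.2 Q hQ) x).mp hx
  have h1 := h _ hn ((hs.1 Q hQ).1.comap_subtype)
  rw [subgroupOf_eq_bot] at h1
  exact (hs.1 Q hQ).2 (by rw [← h1.eq_bot]; exact (inf_eq_left.mpr hQs).symm)

/-- the nonempty chains -/
abbrev NeChain (p : ℕ) (G : Type*) [Group G] : Type _ :=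
  {s : Finset (Subgroup G) // IsPChain p s ∧ s ≠ ∅}

omit [Finite G] in
lemma smul_neChain (φ : MulAut G) {s : Finset (Subgroup G)} (hs : IsPChain p s ∧ s ≠ ∅) :
    IsPChain p (φ • s) ∧ φ • s ≠ ∅ := by
  refine ⟨(P179H166.isCh_smul_iff p φ s).mpr hs.1, ?_⟩
  rw [← Finset.nonempty_iff_ne_empty, Finset.smul_finset_nonempty, Finset.nonempty_iff_ne_empty]
  exact hs.2

/-- conjugation of chains -/
noncomputable local instance neChainAction : MulAction G (NeChain p G) where
  smul g x := ⟨MulAut.conj g • x.1, smul_neChain _ x.2⟩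
  one_smul x := by
    apply Subtype.ext
    change MulAut.conj (1 : G) • x.1 = x.1
    rw [map_one, one_smul]
  mul_smul g h x := by
    apply Subtype.ext
    change MulAut.conj (g * h) • x.1 = MulAut.conj g • MulAut.conj h • x.1
    rw [map_mul, mul_smul]

omit [Finite G] in
lemma neChain_smul_coe (g : G) (x : NeChain p G) : (g • x).1 = MulAut.conj g • x.1 := rfl

omit [Finite G] in
lemma cc_stab_smul (φ : MulAut G) (s : Finset (Subgroup G)) : cc p (stab (φ • s)) = cc p (stab s) := by
  have h : ∀ g, φ g ∈ stab (φ • s) ↔ g ∈ stab s := fun g => P179H166.smul_mem_chStab_iff φ g s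
  refine (cc_congr p (K := stab s) (K' := stab (φ • s))
    { toFun := fun g => ⟨φ g, (h g).mpr g.2⟩
      invFun := fun g => ⟨φ.symm g, (h _).mp (by rw [φ.apply_symm_apply]; exact g.2)⟩
      left_inv := fun g => Subtype.ext (φ.symm_apply_apply _)
      right_inv := fun g => Subtype.ext (φ.apply_symm_apply _)
      map_mul' := fun g g' => Subtype.ext (map_mul φ _ _) }).symm

lemma stabilizer_eq (x : NeChain p G) : MulAction.stabilizer G x = stab x.1 := by
  ext g
  rw [MulAction.mem_stabilizer_iff]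
  constructor
  · intro h
    exact P179H166.mem_chStab_of_conj_smul_eq x.2.1.2 (congrArg Subtype.val h)
  · intro h
    exact Subtype.ext (P179H166.conj_smul_eq_self_of_mem h)

theorem dvd_sum_neChain [Fact p.Prime] :
    ((p ^ ((Nat.card G).factorization p + 1) : ℕ) : ℤ) ∣
      ∑ s ∈ (chains p G).filter (fun s => s ≠ ∅), (-1) ^ s.card * (cc p (stab s) : ℤ) := by
  have := Fintype.ofFinite (NeChain p G)
  have h1 : ∑ s ∈ (chains p G).filter (fun s => s ≠ ∅), (-1) ^ s.card * (cc p (stab s) : ℤ) =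
      ∑ x : NeChain p G, (-1) ^ x.1.card * (cc p (stab x.1) : ℤ) :=
    Finset.sum_subtype _ (by simp) _
  rw [h1]
  refine dvd_sum_of_orbits (Γ := G) _ ?_ _ ?_
  · intro g x
    rw [neChain_smul_coe, cc_stab_smul]
    congr 2
    exact Finset.card_smul_finset _ _
  · intro x
    have h2 : Nat.card (MulAction.orbit G x) * Nat.card (stab x.1) = Nat.card G := by
      rw [← stabilizer_eq]
      have := Fintype.ofFinite G
      have := Fintype.ofFinite (MulAction.orbit G x)
      have := Fintype.ofFinite (MulAction.stabilizer G x)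
      rw [Nat.card_eq_fintype_card, Nat.card_eq_fintype_card, Nat.card_eq_fintype_card]
      exact MulAction.card_orbit_mul_card_stabilizer_eq_card_group G x
    have h3 := card_comm_pElem p (stab x.1)
    rw [numDZ_eq_zero p _ (not_opTrivial_stab x.2.1 x.2.2), mul_zero, Nat.modEq_zero_iff_dvd] at h3
    have h3' : p ^ ((Nat.card (stab x.1)).factorization p + 1) ∣ cc p (stab x.1) := h3
    have ho : Nat.card (MulAction.orbit G x) ≠ 0 := by
      intro h0
      rw [h0, zero_mul] at h2
      exact Nat.card_pos.ne' h2.symm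
    have hst : Nat.card (stab x.1) ≠ 0 := Nat.card_pos.ne'
    have h4 : (Nat.card G).factorization p = (Nat.card (MulAction.orbit G x)).factorization p +
        (Nat.card (stab x.1)).factorization p := by
      rw [← h2, Nat.factorization_mul ho hst, Finsupp.add_apply]
    have h5 : p ^ ((Nat.card G).factorization p + 1) ∣
        Nat.card (MulAction.orbit G x) * cc p (stab x.1) := by
      rw [h4, add_assoc, pow_add]
      exact mul_dvd_mul (Nat.ordProj_dvd _ _) h3'
    have h6 : ((p ^ ((Nat.card G).factorization p + 1) : ℕ) : ℤ) ∣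
        (Nat.card (MulAction.orbit G x) : ℤ) * (cc p (stab x.1) : ℤ) := by
      exact_mod_cast h5
    have h7 : (Nat.card (MulAction.orbit G x) : ℤ) * ((-1) ^ x.1.card * (cc p (stab x.1) : ℤ)) =
        (-1) ^ x.1.card * ((Nat.card (MulAction.orbit G x) : ℤ) * (cc p (stab x.1) : ℤ)) := by ring
    rw [h7]
    exact dvd_mul_of_dvd_right h6 _

/-- **Step 2.** -/
theorem sum_W_modEq [Fact p.Prime] [Fintype G] :
    ∑ t ∈ univ.filter (fun t : G × G => ∃ n, (t.1 * t.2 * t.1⁻¹ * t.2⁻¹) ^ p ^ n = 1),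
      W p t.1 t.2 ≡ ((Nat.card G * numDZ p G : ℕ) : ℤ)
        [ZMOD ((p ^ ((Nat.card G).factorization p + 1) : ℕ) : ℤ)] := by
  rw [sum_W_eq, ← Finset.sum_filter_add_sum_filter_not _ (fun s => s ≠ ∅)]
  have h1 : (chains p G).filter (fun s => ¬ s ≠ ∅) = {∅} := by
    ext s
    simp only [mem_filter, mem_chains, not_not, mem_singleton]
    constructor
    · exact fun h => h.2
    · rintro rfl
      exact ⟨by simp [IsPChain], rfl⟩
  rw [h1, sum_singleton, card_empty, pow_zero, one_mul]
  have h2 := card_comm_pElem p G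
  have h3 : cc p (stab (∅ : Finset (Subgroup G))) = cc p G := by
    rw [stab_empty]
    exact cc_congr p topEquiv
  rw [h3]
  have h4 : ((cc p G : ℕ) : ℤ) ≡ ((Nat.card G * numDZ p G : ℕ) : ℤ)
      [ZMOD ((p ^ ((Nat.card G).factorization p + 1) : ℕ) : ℤ)] := Int.natCast_modEq_iff.mpr h2
  have h5 := (Int.modEq_zero_iff_dvd.mpr (dvd_sum_neChain (p := p) (G := G)))
  have h6 := h5.add h4
  rwa [zero_add] at h6

end P179A
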