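import Vale.Agent.P179.H525.Quot
import Vale.Agent.P179.H525.QuotS
import Vale.Agent.P179.H524.Brauer

/-! # Sums over subgroups -/

namespace P179H524

open Subgroup Vale.Agent.P179.H525

section Tuples

variable {g : ℕ} {G G' : Type*} [Group G] [Group G']

/-- `g`-tuples of pairs -/
abbrev Tup (g : ℕ) (G : Type*) : Type _ := Fin g → G × G

/-- the image of a tuple -/
def Tup.map {g : ℕ} {G G' : Type*} (f : G → G') (s : Tup g G) : Tup g G' :=
  fun i => (f (s i).1, f (s i).2)

/-- the set of the entries of a tuple -/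
def Tup.ent {g : ℕ} {G : Type*} (s : Tup g G) : Set G := {x | ∃ i, x = (s i).1 ∨ x = (s i).2}

omit [Group G] [Group G'] in
lemma Tup.ent_map (f : G → G') (s : Tup g G) : (s.map f).ent = f '' s.ent := by
  ext x
  constructor
  · rintro ⟨i, h | h⟩
    · exact ⟨(s i).1, ⟨i, Or.inl rfl⟩, h.symm⟩
    · exact ⟨(s i).2, ⟨i, Or.inr rfl⟩, h.symm⟩
  · rintro ⟨_, ⟨i, rfl | rfl⟩, rfl⟩
    · exact ⟨i, Or.inl rfl⟩
    · exact ⟨i, Or.inr rfl⟩

omit [Group G] [Group G'] in
lemma Tup.map_injective {f : G → G'} (hf : Function.Injective f) :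
    Function.Injective (Tup.map f : Tup g G → Tup g G') := by
  intro s t h
  funext i
  have := congrFun h i
  exact Prod.ext (hf (Prod.ext_iff.mp this).1) (hf (Prod.ext_iff.mp this).2)

lemma comProd_map (f : G →* G') (s : Tup g G) : comProd (s.map f) = f (comProd s) := by
  rw [comProd, comProd, map_list_prod, List.map_ofFn]
  congr 2
  funext i
  simp [Tup.map]

/-- Pairs of a `p`-subgroup `Q` and a tuple of elements of the normalizer of `Q` whose product of
commutators lies in `Q`. -/
def SSet (p g : ℕ) (G : Type*) [Group G] : Set (Subgroup G × Tup g G) :=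
  {x | IsPGroup p x.1 ∧ x.2.ent ⊆ (normalizer (x.1 : Set G) : Set G) ∧ comProd x.2 ∈ x.1}

/-- the subgroup generated by a pair -/
def supp (x : Subgroup G × Tup g G) : Subgroup G := x.1 ⊔ closure x.2.ent

/-- pairs in a subgroup as pairs in the group -/
def emb (L : Subgroup G) (x : Subgroup L × Tup g L) : Subgroup G × Tup g G :=
  (x.1.map L.subtype, x.2.map L.subtype)

lemma emb_injective (L : Subgroup G) : Function.Injective (emb L : Subgroup L × Tup g L → _) := by
  intro x y h
  have h1 := Prod.ext_iff.mp h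
  exact Prod.ext (map_injective L.subtype_injective h1.1)
    (Tup.map_injective L.subtype_injective h1.2)

lemma supp_emb (L : Subgroup G) (x : Subgroup L × Tup g L) :
    supp (emb L x) = (supp x).map L.subtype := by
  rw [supp, supp, Subgroup.map_sup, MonoidHom.map_closure]
  rw [emb, Tup.ent_map]

lemma emb_mem (p : ℕ) (L : Subgroup G) (x : Subgroup L × Tup g L) :
    emb L x ∈ SSet p g G ↔ x ∈ SSet p g L := by
  refine and_congr ?_ (and_congr ?_ ?_)
  · constructor
    · intro h
      exact h.of_injective (x.1.equivMapOfInjective L.subtype L.subtype_injective).toMonoidHom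
        (x.1.equivMapOfInjective L.subtype L.subtype_injective).injective
    · intro h
      exact h.map _
  · have key : ∀ y : L, (y : G) ∈ normalizer ((x.1.map L.subtype : Subgroup G) : Set G) ↔
        y ∈ normalizer (x.1 : Set L) := by
      intro y
      rw [mem_normalizer_iff, mem_normalizer_iff]
      constructor
      · intro h n
        have h1 := h n
        have h2 : ∀ z : L, (z : G) ∈ x.1.map L.subtype ↔ z ∈ x.1 := by
          intro z
          constructor
          · rintro ⟨w, hw, hwz⟩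
            have : w = z := Subtype.ext hwz
            rwa [← this]
          · intro hz
            exact ⟨z, hz, rfl⟩
        rw [h2] at h1
        have h3 : (y : G) * n * (y : G)⁻¹ = ((y * n * y⁻¹ : L) : G) := rfl
        rw [h3, h2] at h1
        exact h1
      · intro h n
        constructor
        · rintro ⟨w, hw, rfl⟩
          exact ⟨y * w * y⁻¹, (h w).mp hw, rfl⟩
        · rintro ⟨w, hw, hwn⟩
          have h4 : y * (y⁻¹ * w * y) * y⁻¹ = w := by group
          refine ⟨y⁻¹ * w * y, (h _).mpr (by rw [h4]; exact hw), ?_⟩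
          have h5 : (w : G) = y * n * (y : G)⁻¹ := hwn
          change (y : G)⁻¹ * (w : G) * y = n
          rw [h5]; group
    rw [emb, Tup.ent_map]
    constructor
    · intro h y hy
      exact (key y).mp (h ⟨y, hy, rfl⟩)
    · rintro h _ ⟨y, hy, rfl⟩
      exact (key y).mpr (h hy)
  · rw [emb, comProd_map]
    constructor
    · rintro ⟨w, hw, hw'⟩
      have : w = comProd x.2 := Subtype.ext hw'
      rwa [← this]
    · intro h
      exact ⟨_, h, rfl⟩

lemma exists_emb (L : Subgroup G) (y : Subgroup G × Tup g G) (hy : supp y ≤ L) :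
    ∃ x : Subgroup L × Tup g L, emb L x = y := by
  have h1 : y.1 ≤ L := le_trans le_sup_left hy
  have h2 : y.2.ent ⊆ L := fun z hz => hy ((le_sup_right : closure y.2.ent ≤ supp y)
    (subset_closure hz))
  refine ⟨(y.1.subgroupOf L, fun i => (⟨(y.2 i).1, h2 ⟨i, Or.inl rfl⟩⟩,
    ⟨(y.2 i).2, h2 ⟨i, Or.inr rfl⟩⟩)), Prod.ext ?_ ?_⟩
  · change (y.1.subgroupOf L).map L.subtype = y.1
    rw [subgroupOf_map_subtype, inf_eq_left]
    exact h1
  · rfl

/-- the weight of a pair -/
noncomputable def pw {g : ℕ} {G : Type*} [Group G] (x : Subgroup G × Tup g G) : ℚ :=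
  (Nat.card x.1 : ℚ) / (Nat.card x.1 : ℚ) ^ (2 * g)

lemma pw_emb (L : Subgroup G) (x : Subgroup L × Tup g L) : pw (emb L x) = pw x := by
  have : Nat.card (x.1.map L.subtype) = Nat.card x.1 :=
    (Nat.card_congr (x.1.equivMapOfInjective L.subtype L.subtype_injective).toEquiv).symm
  rw [pw, pw, emb]
  simp only
  rw [this]

/-- The contribution of the group itself to the number of weights. -/
noncomputable def wt (p g : ℕ) (L : Type*) [Group L] : ℚ :=
  ∑ᶠ x : {x : Subgroup L × Tup g L // x ∈ SSet p g L ∧ supp x = ⊤}, pw x.1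

/-- The contribution of the group itself to the number of simple modules. -/
noncomputable def ct (p : ℕ) (L : Type*) [Group L] : ℕ :=
  Nat.card {z : L × L // (Commute z.1 z.2 ∧ ¬ p ∣ orderOf z.1) ∧ closure {z.1, z.2} = ⊤}

end Tuples

lemma sum_fibers {X Y : Type*} [Fintype X] [Fintype Y] (s : X → Y) (F : X → ℚ)
    (F' : Y → ℚ) (h : ∀ y, F' y = ∑ᶠ x : {x // s x = y}, F x) : ∑ y, F' y = ∑ x, F x := by
  classical
  rw [← Equiv.sum_comp (Equiv.sigmaFiberEquiv s), Fintype.sum_sigma]
  refine Finset.sum_congr rfl fun y _ => ?_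
  rw [h, finsum_eq_sum_of_fintype]
  rfl

section

variable (p g : ℕ) {G : Type*} [Group G] (L : Subgroup G)

/-- generating pairs of `L` as pairs in `G` -/
def embGen : {x : Subgroup L × Tup g L // x ∈ SSet p g L ∧ supp x = ⊤} →
    {y : Subgroup G × Tup g G // y ∈ SSet p g G ∧ supp y = L} :=
  fun x => ⟨emb L x.1, (emb_mem p L x.1).mpr x.2.1, by
    rw [supp_emb, x.2.2, ← MonoidHom.range_eq_map, range_subtype]⟩

lemma embGen_bijective : Function.Bijective (embGen p g L) := by
  constructor
  · intro x y h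
    exact Subtype.ext (emb_injective L (congrArg Subtype.val h))
  · rintro ⟨y, hy1, hy3⟩
    obtain ⟨x, rfl⟩ := exists_emb L y hy3.le
    refine ⟨⟨x, (emb_mem p L x).mp hy1, ?_⟩, rfl⟩
    rw [supp_emb] at hy3
    apply map_injective L.subtype_injective
    rw [hy3, ← MonoidHom.range_eq_map, range_subtype]

lemma wt_eq : wt p g L = ∑ᶠ y : {y : Subgroup G × Tup g G // y ∈ SSet p g G ∧ supp y = L}, pw y.1 :=
  finsum_eq_of_bijective (embGen p g L) (embGen_bijective p g L) fun x => (pw_emb L x.1).symm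

lemma wt_top : wt p g (⊤ : Subgroup G) = wt p g G := wt_eq p g ⊤

/-- the pairs counted by `ct` -/
def CSet (p : ℕ) (G : Type*) [Group G] : Set (G × G) :=
  {z | Commute z.1 z.2 ∧ ¬ p ∣ orderOf z.1}

lemma closure_pair_coe (z : L × L) :
    closure {(z.1 : G), (z.2 : G)} = (closure {z.1, z.2}).map L.subtype := by
  rw [MonoidHom.map_closure]
  congr 1
  simp [Set.image_pair]

lemma ct_eq : ct p L = Nat.card {z : G × G // z ∈ CSet p G ∧ closure {z.1, z.2} = L} := by
  have hc : ∀ z : L × L, ((z.1 : G), (z.2 : G)) ∈ CSet p G ↔ (Commute z.1 z.2 ∧ ¬ p ∣ orderOf z.1) := by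
    intro z
    refine and_congr ⟨fun h => Subtype.ext h, fun h => congrArg Subtype.val h⟩ ?_
    rw [Subgroup.orderOf_coe]
  have hcl : ∀ z : L × L, closure {(z.1 : G), (z.2 : G)} = L ↔ closure {z.1, z.2} = ⊤ := by
    intro z
    rw [closure_pair_coe]
    constructor
    · intro h
      apply map_injective L.subtype_injective
      rw [h, ← MonoidHom.range_eq_map, range_subtype]
    · intro h
      rw [h, ← MonoidHom.range_eq_map, range_subtype]
  let e : {z : L × L // (Commute z.1 z.2 ∧ ¬ p ∣ orderOf z.1) ∧ closure {z.1, z.2} = ⊤} →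
      {z : G × G // z ∈ CSet p G ∧ closure {z.1, z.2} = L} :=
    fun z => ⟨((z.1.1 : G), (z.1.2 : G)), (hc z.1).mpr z.2.1, (hcl z.1).mpr z.2.2⟩
  refine Nat.card_congr (Equiv.ofBijective e ⟨?_, ?_⟩)
  · intro x y h
    have h1 := Prod.ext_iff.mp (congrArg Subtype.val h)
    exact Subtype.ext (Prod.ext (Subtype.ext h1.1) (Subtype.ext h1.2))
  · rintro ⟨⟨a, b⟩, h1, h2⟩
    have ha : a ∈ L := by rw [← h2]; exact subset_closure (by simp)
    have hb : b ∈ L := by rw [← h2]; exact subset_closure (by simp)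
    exact ⟨⟨(⟨a, ha⟩, ⟨b, hb⟩), (hc (⟨a, ha⟩, ⟨b, hb⟩)).mp h1, (hcl (⟨a, ha⟩, ⟨b, hb⟩)).mp h2⟩, rfl⟩

lemma ct_top : ct p (⊤ : Subgroup G) = ct p G := ct_eq p ⊤

end

theorem sum_wt (p g : ℕ) (G : Type*) [Group G] [Finite G] :
    ∑ᶠ L : Subgroup G, wt p g L = ∑ᶠ x : {x : Subgroup G × Tup g G // x ∈ SSet p g G}, pw x.1 := by
  classical
  have := Fintype.ofFinite G
  have := Fintype.ofFinite (Subgroup G)
  have := Fintype.ofFinite {x : Subgroup G × Tup g G // x ∈ SSet p g G}
  rw [finsum_eq_sum_of_fintype, finsum_eq_sum_of_fintype]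
  refine sum_fibers (fun x => supp x.1) _ _ fun L => ?_
  rw [wt_eq]
  exact finsum_eq_of_bijective
    (fun y => (⟨⟨y.1, y.2.1⟩, y.2.2⟩ : {x : {x : Subgroup G × Tup g G // x ∈ SSet p g G} // supp x.1 = L}))
    ⟨fun x y h => Subtype.ext (congrArg (fun w => w.1.1) h),
      fun ⟨⟨y, h1⟩, h2⟩ => ⟨⟨y, h1, h2⟩, rfl⟩⟩ fun _ => rfl

theorem sum_ct (p : ℕ) (G : Type*) [Group G] [Finite G] :
    ∑ᶠ L : Subgroup G, (ct p L : ℚ) = Nat.card {z : G × G // z ∈ CSet p G} := by
  classical
  have := Fintype.ofFinite G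
  have := Fintype.ofFinite (Subgroup G)
  have := Fintype.ofFinite {z : G × G // z ∈ CSet p G}
  rw [finsum_eq_sum_of_fintype]
  rw [sum_fibers (fun z : {z : G × G // z ∈ CSet p G} => closure {z.1.1, z.1.2}) (fun _ => 1)]
  · simp [Nat.card_eq_fintype_card]
  · intro L
    rw [ct_eq, finsum_eq_sum_of_fintype]
    simp only [Finset.sum_const, Finset.card_univ, nsmul_eq_mul, mul_one, Nat.cast_inj]
    rw [← Nat.card_eq_fintype_card]
    exact Nat.card_congr
      { toFun := fun y => ⟨⟨y.1, y.2.1⟩, y.2.2⟩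
        invFun := fun y => ⟨y.1.1, y.1.2, y.2⟩
        left_inv := fun _ => rfl
        right_inv := fun _ => rfl }

/-- the number of tuples over a set, for a surjective homomorphism -/
lemma card_preimage {A B : Type*} [Group A] [Group B] [Finite A] [Finite B] (f : A →* B)
    (hf : Function.Surjective f) (X : Set B) :
    Nat.card {a // f a ∈ X} = Nat.card f.ker * Nat.card X := by
  have e2 : ∀ b : X, {a : {a // f a ∈ X} // (⟨f a.1, a.2⟩ : X) = b} ≃ f.ker := fun b =>
    (show {a : {a // f a ∈ X} // (⟨f a.1, a.2⟩ : X) = b} ≃ f ⁻¹' {b.1} from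
      { toFun := fun a => ⟨a.1.1, congrArg Subtype.val a.2⟩
        invFun := fun a => ⟨⟨a.1, by
          have : f a.1 = b.1 := a.2
          rw [this]; exact b.2⟩, Subtype.ext a.2⟩
        left_inv := fun _ => rfl
        right_inv := fun _ => rfl }).trans (MonoidHom.fiberEquivKerOfSurjective hf b.1)
  rw [← Nat.card_congr (Equiv.sigmaFiberEquiv (fun a : {a // f a ∈ X} => (⟨f a.1, a.2⟩ : X))),
    Nat.card_congr (Equiv.sigmaCongrRight e2), Nat.card_congr (Equiv.sigmaEquivProd _ _),
    Nat.card_prod, mul_comm]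

end P179H524
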